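import Mathlib

/-! P371 MODULE ANGLE (angle ≤ arc length for C^1 curves of unit vectors).
F z = angle (e x) (e z) is continuous, F x = 0; for y < z: F z - F y ≤ angle (e y) (e z)
(`InnerProductGeometry.angle_le_angle_add_angle`). For unit vectors, A = angle u v,
A/2 ≤ tan (A/2) and ‖u - v‖ = 2 sin (A/2) give A ≤ ‖u - v‖ / √(1 - ‖u - v‖^2/4), so the limsup of the
right slope of F at y is at most ‖e' y‖. Conclude with `image_le_of_liminf_slope_right_le_deriv_boundary`. -/

open MeasureTheory Set intervalIntegral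

namespace P371

theorem ANGLE_aux {E : Type*} [NormedAddCommGroup E] [InnerProductSpace ℝ E] {u v : E}
    (hu : ‖u‖ = 1) (hv : ‖v‖ = 1) (h : ‖v - u‖ < 2) :
    InnerProductGeometry.angle u v ≤ ‖v - u‖ * (Real.sqrt (1 - ‖v - u‖ ^ 2 / 4))⁻¹ := by
  have hcos : Real.cos (InnerProductGeometry.angle u v) = inner ℝ u v := by
    rw [InnerProductGeometry.cos_angle, hu, hv]; simp
  have hn := norm_sub_sq_real v u
  rw [hu, hv, real_inner_comm] at hn
  have h0 := InnerProductGeometry.angle_nonneg u v
  have hpi := InnerProductGeometry.angle_le_pi u v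
  set A := InnerProductGeometry.angle u v with hA
  have hc2 : Real.cos A = 2 * Real.cos (A / 2) ^ 2 - 1 := by
    rw [← Real.cos_two_mul]; congr 1; ring
  have hcsq : Real.cos (A / 2) ^ 2 = 1 - ‖v - u‖ ^ 2 / 4 := by
    nlinarith
  have hc0 : 0 ≤ Real.cos (A / 2) := Real.cos_nonneg_of_neg_pi_div_two_le_of_le (by linarith) (by linarith)
  have hpos : 0 < 1 - ‖v - u‖ ^ 2 / 4 := by
    have := norm_nonneg (v - u)
    nlinarith
  have hcs : Real.cos (A / 2) = Real.sqrt (1 - ‖v - u‖ ^ 2 / 4) := by
    rw [← hcsq, Real.sqrt_sq hc0]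
  have hcp : 0 < Real.cos (A / 2) := by
    rw [hcs]; exact Real.sqrt_pos.mpr hpos
  have hlt : A / 2 < Real.pi / 2 := by
    by_contra hcon
    have : A / 2 = Real.pi / 2 := by linarith
    rw [this, Real.cos_pi_div_two] at hcp
    exact lt_irrefl _ hcp
  have hs0 : 0 ≤ Real.sin (A / 2) := Real.sin_nonneg_of_nonneg_of_le_pi (by linarith) (by linarith)
  have hss : Real.sin (A / 2) = ‖v - u‖ / 2 := by
    have h1 := Real.sin_sq_add_cos_sq (A / 2)
    have h2 : Real.sin (A / 2) ^ 2 = (‖v - u‖ / 2) ^ 2 := by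
      rw [hcsq] at h1; linarith
    exact (pow_left_inj₀ hs0 (by positivity) (by norm_num)).mp h2
  have ht := Real.le_tan (x := A / 2) (by linarith) hlt
  rw [Real.tan_eq_sin_div_cos, hss, hcs] at ht
  rw [← div_eq_mul_inv]
  have h3 : ‖v - u‖ / 2 / Real.sqrt (1 - ‖v - u‖ ^ 2 / 4) =
      (‖v - u‖ / Real.sqrt (1 - ‖v - u‖ ^ 2 / 4)) / 2 := by ring
  rw [h3] at ht
  linarith

theorem angle_le_length {E : Type*} [NormedAddCommGroup E] [InnerProductSpace ℝ E]
    (e e' : ℝ → E) (he : ∀ x, HasDerivAt e (e' x) x) (hc : Continuous e') (h1 : ∀ x, ‖e x‖ = 1)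
    {x y : ℝ} (hxy : x ≤ y) :
    InnerProductGeometry.angle (e x) (e y) ≤ ∫ t in x..y, ‖e' t‖ := by
  have hec : Continuous e := continuous_iff_continuousAt.mpr fun z => (he z).continuousAt
  have hF : (fun z => InnerProductGeometry.angle (e x) (e z)) =
      fun z => Real.arccos (inner ℝ (e x) (e z)) := by
    funext z
    unfold InnerProductGeometry.angle
    rw [h1, h1]; simp
  have hFc : Continuous (fun z => InnerProductGeometry.angle (e x) (e z)) := by
    rw [hF]
    exact Real.continuous_arccos.comp (continuous_const.inner hec)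
  have key := image_le_of_liminf_slope_right_le_deriv_boundary
    (f := fun z => InnerProductGeometry.angle (e x) (e z)) (a := x) (b := y)
    (B := fun z => ∫ t in x..z, ‖e' t‖) (B' := fun z => ‖e' z‖)
    hFc.continuousOn ?_ ?_ ?_ ?_
  · exact key ⟨hxy, le_refl y⟩
  · simp only [intervalIntegral.integral_same]
    rw [InnerProductGeometry.angle_self]
    intro h0
    have := h1 x
    rw [h0, norm_zero] at this
    norm_num at this
  · have hcont : Continuous (fun z => ∫ t in x..z, ‖e' t‖) :=
      intervalIntegral.continuous_primitive (fun a b => (hc.norm).intervalIntegrable a b) x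
    exact hcont.continuousOn
  · intro z _
    have := intervalIntegral.integral_hasDerivAt_right ((hc.norm).intervalIntegrable x z)
      (hc.norm.stronglyMeasurableAtFilter _ _) hc.norm.continuousAt
    exact this.hasDerivWithinAt
  · intro z _ r hr
    -- the comparison function
    have hsl : Filter.Tendsto (fun w => ‖slope e z w‖) (nhdsWithin z (Ioi z)) (nhds ‖e' z‖) := by
      have h2 := (hasDerivAt_iff_tendsto_slope.mp (he z)).norm
      refine h2.mono_left (nhdsWithin_mono z ?_)
      intro w hw
      exact ne_of_gt hw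
    have hd : Filter.Tendsto (fun w => ‖e w - e z‖) (nhdsWithin z (Ioi z)) (nhds 0) := by
      have h2 : Filter.Tendsto (fun w => ‖e w - e z‖) (nhds z) (nhds ‖e z - e z‖) :=
        ((hec.sub continuous_const).norm).tendsto z
      rw [sub_self, norm_zero] at h2
      exact h2.mono_left nhdsWithin_le_nhds
    have hq : Filter.Tendsto (fun w => (Real.sqrt (1 - ‖e w - e z‖ ^ 2 / 4))⁻¹)
        (nhdsWithin z (Ioi z)) (nhds 1) := by
      have h3 : Filter.Tendsto (fun w => 1 - ‖e w - e z‖ ^ 2 / 4) (nhdsWithin z (Ioi z)) (nhds 1) := by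
        have := (tendsto_const_nhds (x := (1 : ℝ))).sub ((hd.pow 2).div_const 4)
        simpa using this
      have h4 := (Real.continuous_sqrt.tendsto 1).comp h3
      rw [Real.sqrt_one] at h4
      have h5 := h4.inv₀ one_ne_zero
      simpa using h5
    have hg := hsl.mul hq
    rw [mul_one] at hg
    have ev1 := hg.eventually_lt_const hr
    have ev2 := hd.eventually_lt_const (show (0 : ℝ) < 2 by norm_num)
    have ev3 : ∀ᶠ w in nhdsWithin z (Ioi z), z < w := eventually_mem_nhdsWithin
    refine Filter.Eventually.frequently ?_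
    filter_upwards [ev1, ev2, ev3] with w hw1 hw2 hw3
    have hwz : 0 < w - z := by linarith
    have t1 := InnerProductGeometry.angle_le_angle_add_angle (e x) (e z) (e w)
    have t2 := ANGLE_aux (h1 z) (h1 w) hw2
    rw [slope_def_field]
    refine lt_of_le_of_lt ?_ hw1
    have t3 : ‖slope e z w‖ = ‖e w - e z‖ / (w - z) := by
      rw [slope_def_module, norm_smul, norm_inv, Real.norm_eq_abs, abs_of_pos hwz]
      field_simp
    rw [t3, div_mul_eq_mul_div, div_le_div_iff_of_pos_right hwz]
    linarith

end P371
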