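import Vale.Agent.Lib.P371.Window
import Vale.Agent.Lib.P371.Angle

/-! P371 MODULE CURVE: the window inequality applied to the norm and the arc length of a curve in a complex
inner product space (`curve`), and the kinetic inequality for C^1 families (`kin_C1`). -/

open MeasureTheory Set intervalIntegral

namespace P371

open scoped InnerProductSpace

section real

variable {E : Type*} [NormedAddCommGroup E] [InnerProductSpace ℝ E]

/-- derivative of the norm -/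
theorem cv_norm {X : ℝ → E} {X' : E} {x : ℝ} (hX : HasDerivAt X X' x) (hX0 : X x ≠ 0) :
    HasDerivAt (fun x => ‖X x‖) (⟪X x, X'⟫_ℝ / ‖X x‖) x := by
  have h1 : HasDerivAt (fun x => ‖X x‖ ^ 2) (2 * ⟪X x, X'⟫_ℝ) x := hX.norm_sq
  have h0 : ‖X x‖ ≠ 0 := norm_ne_zero_iff.mpr hX0
  have h2 : ‖X x‖ ^ 2 ≠ 0 := pow_ne_zero 2 h0
  have h3 := h1.sqrt h2
  have e1 : (fun x => Real.sqrt (‖X x‖ ^ 2)) = fun x => ‖X x‖ := by
    funext y
    exact Real.sqrt_sq (norm_nonneg _)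
  rw [e1, Real.sqrt_sq (norm_nonneg _)] at h3
  convert h3 using 1
  field_simp

/-- derivative of the unit vector -/
theorem cv_unit {X : ℝ → E} {X' : E} {x : ℝ} (hX : HasDerivAt X X' x) (hX0 : X x ≠ 0) :
    HasDerivAt (fun x => (‖X x‖)⁻¹ • X x)
      ((‖X x‖)⁻¹ • X' + (-(⟪X x, X'⟫_ℝ / ‖X x‖) / ‖X x‖ ^ 2) • X x) x := by
  have h0 : ‖X x‖ ≠ 0 := norm_ne_zero_iff.mpr hX0
  exact ((cv_norm hX hX0).inv h0).smul hX

theorem cv_unit_sq (v w : E) (hv : v ≠ 0) :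
    ‖v‖ ^ 2 * ‖(‖v‖)⁻¹ • w + (-(⟪v, w⟫_ℝ / ‖v‖) / ‖v‖ ^ 2) • v‖ ^ 2 =
      ‖w‖ ^ 2 - ⟪v, w⟫_ℝ ^ 2 / ‖v‖ ^ 2 := by
  have h0 : ‖v‖ ≠ 0 := norm_ne_zero_iff.mpr hv
  rw [norm_add_sq_real, norm_smul, norm_smul, real_inner_smul_left, real_inner_smul_right,
    real_inner_comm w v]
  simp only [Real.norm_eq_abs, mul_pow, sq_abs]
  field_simp
  ring

theorem cv_cos_le {e e' : ℝ → E} (he : ∀ x, HasDerivAt e (e' x) x) (hc : Continuous e')
    (h1 : ∀ x, ‖e x‖ = 1) (x y : ℝ) (hd : |∫ t in x..y, ‖e' t‖| ≤ Real.pi) :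
    Real.cos (∫ t in x..y, ‖e' t‖) ≤ ⟪e x, e y⟫_ℝ := by
  have key : ∀ x y, x ≤ y → |∫ t in x..y, ‖e' t‖| ≤ Real.pi →
      Real.cos (∫ t in x..y, ‖e' t‖) ≤ ⟪e x, e y⟫_ℝ := by
    intro x y hxy hd
    have h2 := angle_le_length e e' he hc h1 hxy
    have h3 : Real.cos (InnerProductGeometry.angle (e x) (e y)) = ⟪e x, e y⟫_ℝ := by
      rw [InnerProductGeometry.cos_angle, h1, h1, mul_one, div_one]
    rw [← h3]
    exact Real.cos_le_cos_of_nonneg_of_le_pi (InnerProductGeometry.angle_nonneg _ _)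
      ((abs_le.mp hd).2) h2
  rcases le_total x y with h | h
  · exact key x y h hd
  · rw [integral_symm, Real.cos_neg, real_inner_comm]
    rw [integral_symm, abs_neg] at hd
    exact key y x h hd

end real

theorem cv_kk_nonneg (d : ℝ) : 0 ≤ kk d := by
  unfold kk
  split_ifs
  · positivity
  · exact le_refl _

theorem cv_kk_continuous : Continuous kk := by
  have h : kk = fun d => Real.cos (min |d| Real.pi / 2) ^ 2 := by
    funext d
    unfold kk
    split_ifs with h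
    · rw [min_eq_left h.le, ← Real.cos_abs (d / 2), abs_div, abs_two]
    · rw [min_eq_right (not_lt.mp h), Real.cos_pi_div_two]
      simp
  rw [h]
  fun_prop

theorem cv_kk_le {d t : ℝ} (h : |d| < Real.pi → Real.cos (d / 2) ≤ t) : kk d ≤ t ^ 2 := by
  unfold kk
  split_ifs with hd
  · have h2 : 0 ≤ Real.cos (d / 2) := by
      rw [abs_lt] at hd
      exact Real.cos_nonneg_of_neg_pi_div_two_le_of_le (by linarith) (by linarith)
    exact pow_le_pow_left₀ h2 (h hd) 2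
  · positivity

theorem curve {E : Type*} [NormedAddCommGroup E] [InnerProductSpace ℂ E] {a b : ℝ} (hab : a < b)
    (X X' : ℝ → E) (hX : ∀ x, HasDerivAt X (X' x) x) (hX' : Continuous X') (hX0 : ∀ x, X x ≠ 0)
    (g : ℝ → ℝ) (hg : ∀ x, HasDerivAt g (2 * (inner ℂ (X x) (X' x)).re) x)
    (hg0 : ∀ x, 0 ≤ g x) (hgσ : ∀ x, g x ≤ ‖X x‖ ^ 2) (ha : g a = 0) (hb : g b = 0)
    (M : ℝ) (hM0 : 0 < M) (hM : ∀ f : E, ∫ y in a..b, ‖inner ℂ f (X y)‖ ^ 2 ≤ M * ‖f‖ ^ 2) :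
    (Real.pi / (C0 * M)) ^ 2 * ∫ x in a..b, g x ^ 2 * ‖X x‖ ^ 2 ≤ 4 * ∫ x in a..b, ‖X' x‖ ^ 2 := by
  let _ : InnerProductSpace ℝ E := InnerProductSpace.complexToReal
  have hre : ∀ v w : E, ⟪v, w⟫_ℝ = (inner ℂ v w).re := fun v w => rfl
  have hXc : Continuous X := continuous_iff_continuousAt.mpr fun x => (hX x).continuousAt
  have hn : ∀ x, ‖X x‖ ≠ 0 := fun x => norm_ne_zero_iff.mpr (hX0 x)
  have hn2 : ∀ x, ‖X x‖ ^ 2 ≠ 0 := fun x => pow_ne_zero 2 (hn x)
  have hp2 : ∀ x, 0 < ‖X x‖ ^ 2 := fun x => by positivity [hn x]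
  have htc : Continuous fun x => ⟪X x, X' x⟫_ℝ := hXc.inner hX'
  set e : ℝ → E := fun x => (‖X x‖)⁻¹ • X x with he_def
  set e' : ℝ → E := fun x => (‖X x‖)⁻¹ • X' x + (-(⟪X x, X' x⟫_ℝ / ‖X x‖) / ‖X x‖ ^ 2) • X x
    with he'_def
  have he : ∀ x, HasDerivAt e (e' x) x := fun x => cv_unit (hX x) (hX0 x)
  have hec : Continuous e' := by
    have c1 : Continuous fun x => ‖X x‖ := hXc.norm
    exact ((c1.inv₀ hn).smul hX').add ((((htc.div c1 hn).neg).div (c1.pow 2) hn2).smul hXc)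
  have h1 : ∀ x, ‖e x‖ = 1 := by
    intro x
    rw [he_def]
    simp only [norm_smul, norm_inv, norm_norm]
    exact inv_mul_cancel₀ (hn x)
  have hwc : Continuous fun x => ‖e' x‖ := hec.norm
  set α : ℝ → ℝ := fun x => 2 * ∫ s in a..x, ‖e' s‖ with hα_def
  have hα : ∀ x, HasDerivAt α (2 * ‖e' x‖) x := by
    intro x
    exact (integral_hasDerivAt_right (hwc.intervalIntegrable _ _)
      (hwc.stronglyMeasurableAtFilter _ _) hwc.continuousAt).const_mul 2
  have hαc : Continuous α := continuous_iff_continuousAt.mpr fun x => (hα x).continuousAt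
  have hdiff : ∀ x y, α y - α x = 2 * ∫ s in x..y, ‖e' s‖ := by
    intro x y
    have := integral_add_adjacent_intervals (hwc.intervalIntegrable (μ := volume) a x)
      (hwc.intervalIntegrable x y)
    rw [hα_def]
    simp only
    rw [← this]
    ring
  have hker : ∀ x y, kk (α y - α x) ≤ ‖inner ℂ (e x) (e y)‖ ^ 2 := by
    intro x y
    refine cv_kk_le fun hd => ?_
    rw [hdiff] at hd ⊢
    have h2 : 2 * (∫ s in x..y, ‖e' s‖) / 2 = ∫ s in x..y, ‖e' s‖ := by ring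
    rw [h2]
    rw [abs_mul, abs_two] at hd
    have h3 : |∫ s in x..y, ‖e' s‖| ≤ Real.pi := by
      have := abs_nonneg (∫ s in x..y, ‖e' s‖)
      linarith
    refine (cv_cos_le he hec h1 x y h3).trans ?_
    rw [hre]
    exact (le_abs_self _).trans (Complex.abs_re_le_norm _)
  have hwin := window hab (fun x => ‖X x‖ ^ 2) g (fun x => 2 * ⟪X x, X' x⟫_ℝ) α
    (fun x => 2 * ‖e' x‖) (hXc.norm.pow 2) hp2 hg (continuous_const.mul htc) hα
    (continuous_const.mul hwc) (fun x => by positivity) ha hb M hM0 ?_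
  · refine hwin.trans ?_
    rw [← intervalIntegral.integral_const_mul]
    refine intervalIntegral.integral_mono_on hab.le ?_ ?_ ?_
    · refine Continuous.intervalIntegrable ?_ _ _
      have hgc : Continuous g := continuous_iff_continuousAt.mpr fun x => (hg x).continuousAt
      exact (((continuous_const.mul htc).pow 2).add
        ((hgc.pow 2).mul ((continuous_const.mul hwc).pow 2))).div (hXc.norm.pow 2) hn2
    · exact (continuous_const.mul (hX'.norm.pow 2)).intervalIntegrable _ _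
    · intro x _
      have h2 := cv_unit_sq (X x) (X' x) (hX0 x)
      have h3 : ‖X x‖ ^ 2 * ‖e' x‖ ^ 2 = ‖X' x‖ ^ 2 - ⟪X x, X' x⟫_ℝ ^ 2 / ‖X x‖ ^ 2 := h2
      rw [div_le_iff₀ (hp2 x)]
      have h4 : g x ^ 2 ≤ (‖X x‖ ^ 2) ^ 2 := pow_le_pow_left₀ (hg0 x) (hgσ x) 2
      have h5 : g x ^ 2 * (2 * ‖e' x‖) ^ 2 ≤ (‖X x‖ ^ 2) ^ 2 * (2 * ‖e' x‖) ^ 2 :=
        mul_le_mul_of_nonneg_right h4 (sq_nonneg _)
      have h6 : (‖X x‖ ^ 2) ^ 2 * (2 * ‖e' x‖) ^ 2 =
          4 * ‖X x‖ ^ 2 * (‖X x‖ ^ 2 * ‖e' x‖ ^ 2) := by ring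
      rw [h6, h3] at h5
      have h7 : 4 * ‖X x‖ ^ 2 * (‖X' x‖ ^ 2 - ⟪X x, X' x⟫_ℝ ^ 2 / ‖X x‖ ^ 2) =
          4 * ‖X' x‖ ^ 2 * ‖X x‖ ^ 2 - 4 * ⟪X x, X' x⟫_ℝ ^ 2 := by
        have := hn x
        field_simp
      rw [h7] at h5
      nlinarith
  · intro x _
    have h2 : ∫ y in a..b, kk (α y - α x) * ‖X y‖ ^ 2 ≤ ∫ y in a..b, ‖inner ℂ (e x) (X y)‖ ^ 2 := by
      refine intervalIntegral.integral_mono_on hab.le ?_ ?_ ?_
      · exact (((cv_kk_continuous.comp (hαc.sub continuous_const))).mul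
          (hXc.norm.pow 2)).intervalIntegrable _ _
      · exact ((Continuous.inner continuous_const hXc).norm.pow 2).intervalIntegrable _ _
      · intro y _
        have h3 := mul_le_mul_of_nonneg_right (hker x y) (hp2 y).le
        refine h3.trans (le_of_eq ?_)
        have h4 : (e y) = ((‖X y‖)⁻¹ : ℝ) • X y := rfl
        have h5 : inner ℂ (e x) (e y) = (((‖X y‖)⁻¹ : ℝ) : ℂ) * inner ℂ (e x) (X y) := by
          rw [h4, inner_smul_right_eq_smul]
          rfl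
        rw [h5, norm_mul, Complex.norm_real, norm_inv, norm_norm, mul_pow, inv_pow]
        have := hn y
        field_simp
    refine h2.trans ((hM (e x)).trans (le_of_eq ?_))
    rw [h1]
    ring


theorem cv_add_sq {p q : ℂ} {s : ℝ} (hs : 0 < s) :
    ‖p + q‖ ^ 2 ≤ (1 + s) * ‖p‖ ^ 2 + (1 + 1 / s) * ‖q‖ ^ 2 := by
  have h1 : ‖p + q‖ ^ 2 ≤ (‖p‖ + ‖q‖) ^ 2 :=
    pow_le_pow_left₀ (norm_nonneg _) (norm_add_le _ _) 2
  have h2 : 0 ≤ (s * ‖p‖ - ‖q‖) ^ 2 / s := by positivity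
  have h3 : (s * ‖p‖ - ‖q‖) ^ 2 / s = s * ‖p‖ ^ 2 - 2 * ‖p‖ * ‖q‖ + ‖q‖ ^ 2 / s := by
    field_simp
    ring
  have h4 : (1 + 1 / s) * ‖q‖ ^ 2 = ‖q‖ ^ 2 + ‖q‖ ^ 2 / s := by ring
  rw [h4]
  nlinarith

theorem cv_eps {E : Type*} [NormedAddCommGroup E] [InnerProductSpace ℂ E] {a b : ℝ} (hab : a < b)
    (U V : ℝ → E) (hU : ∀ x, HasDerivAt U (V x) x) (hV : Continuous V) (ha : U a = 0) (hb : U b = 0)
    (M : ℝ) (hM0 : 0 < M) (hM : ∀ f : E, ∫ y in a..b, ‖inner ℂ f (U y)‖ ^ 2 ≤ M * ‖f‖ ^ 2)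
    (ε : ℝ) (hε : 0 < ε) :
    (Real.pi / (C0 * (M + ε * (b - a)))) ^ 2 * ∫ x in a..b, ‖U x‖ ^ 6 ≤
      4 * ∫ x in a..b, ‖V x‖ ^ 2 := by
  have hUc : Continuous U := continuous_iff_continuousAt.mpr fun x => (hU x).continuousAt
  have hba : 0 < b - a := sub_pos.mpr hab
  let L : E →L[ℂ] WithLp 2 (E × ℂ) :=
    ((WithLp.prodContinuousLinearEquiv 2 ℂ E ℂ).symm : E × ℂ →L[ℂ] WithLp 2 (E × ℂ)).comp
      (ContinuousLinearMap.inl ℂ E ℂ)
  have hL : ∀ v, L v = WithLp.toLp 2 (v, 0) := fun v => rfl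
  let w : WithLp 2 (E × ℂ) := WithLp.toLp 2 (0, ((Real.sqrt ε : ℝ) : ℂ))
  have hw : w = WithLp.toLp 2 (0, ((Real.sqrt ε : ℝ) : ℂ)) := rfl
  have hXd : ∀ x, HasDerivAt (fun x => L (U x) + w) (L (V x)) x := fun x =>
    ((L.restrictScalars ℝ).hasFDerivAt.comp_hasDerivAt x (hU x)).add_const w
  have hLn : ∀ v, ‖L v‖ ^ 2 = ‖v‖ ^ 2 := by
    intro v
    rw [hL, WithLp.prod_norm_sq_eq_of_L2]
    simp
  have hn : ∀ x, ‖L (U x) + w‖ ^ 2 = ‖U x‖ ^ 2 + ε := by
    intro x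
    rw [hL, hw, WithLp.prod_norm_sq_eq_of_L2]
    simp [Real.sq_sqrt hε.le]
  have hX0 : ∀ x, L (U x) + w ≠ 0 := by
    intro x h
    have h1 := hn x
    rw [h, norm_zero] at h1
    have : 0 ≤ ‖U x‖ ^ 2 := by positivity
    linarith
  have hin : ∀ x, inner ℂ (L (U x) + w) (L (V x)) = inner ℂ (U x) (V x) := by
    intro x
    rw [hL, hL, hw]
    simp [WithLp.prod_inner_apply]
  have hg : ∀ x, HasDerivAt (fun x => ‖U x‖ ^ 2)
      (2 * (inner ℂ (L (U x) + w) (L (V x))).re) x := by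
    intro x
    rw [hin]
    let _ : InnerProductSpace ℝ E := InnerProductSpace.complexToReal
    exact (hU x).norm_sq
  have hinf : ∀ (f : WithLp 2 (E × ℂ)) x, inner ℂ f (L (U x) + w) =
      inner ℂ f.fst (U x) + inner ℂ f.snd ((Real.sqrt ε : ℝ) : ℂ) := by
    intro f x
    rw [hL, hw]
    simp [WithLp.prod_inner_apply]
  have hMe : 0 < M + ε * (b - a) := by positivity
  have h := curve hab (fun x => L (U x) + w) (fun x => L (V x)) hXd (L.continuous.comp hV) hX0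
    (fun x => ‖U x‖ ^ 2) hg (fun x => by positivity) (fun x => by rw [hn]; linarith)
    (by rw [ha]; simp) (by rw [hb]; simp) (M + ε * (b - a)) hMe ?_
  · refine le_trans ?_ (h.trans (le_of_eq ?_))
    · refine mul_le_mul_of_nonneg_left ?_ (sq_nonneg _)
      refine intervalIntegral.integral_mono_on hab.le ?_ ?_ ?_
      · exact (hUc.norm.pow 6).intervalIntegrable _ _
      · simp only [hn]
        exact (((hUc.norm.pow 2).pow 2).mul ((hUc.norm.pow 2).add continuous_const)).intervalIntegrable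
          _ _
      · intro x _
        simp only [hn]
        have : 0 ≤ (‖U x‖ ^ 2) ^ 2 * ε := by positivity
        nlinarith
    · simp only [hLn]
  · intro f
    set s : ℝ := ε * (b - a) / M with hs
    have hs0 : 0 < s := by positivity
    have h1 : ∫ y in a..b, ‖inner ℂ f (L (U y) + w)‖ ^ 2 ≤
        ∫ y in a..b, ((1 + s) * ‖inner ℂ f.fst (U y)‖ ^ 2 +
          (1 + 1 / s) * (‖f.snd‖ ^ 2 * ε)) := by
      refine intervalIntegral.integral_mono_on hab.le ?_ ?_ ?_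
      · refine ((Continuous.inner continuous_const ?_).norm.pow 2).intervalIntegrable _ _
        exact (L.continuous.comp hUc).add continuous_const
      · exact ((continuous_const.mul ((Continuous.inner continuous_const hUc).norm.pow 2)).add
          continuous_const).intervalIntegrable _ _
      · intro y _
        rw [hinf]
        refine (cv_add_sq hs0).trans (le_of_eq ?_)
        have h2 : ‖inner ℂ f.snd ((Real.sqrt ε : ℝ) : ℂ)‖ ^ 2 = ‖f.snd‖ ^ 2 * ε := by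
          rw [RCLike.inner_apply, norm_mul, mul_pow, Complex.norm_real, Real.norm_eq_abs, sq_abs,
            Real.sq_sqrt hε.le]
          simp [mul_comm]
        rw [h2]
    refine h1.trans ?_
    rw [intervalIntegral.integral_add, intervalIntegral.integral_const_mul,
      intervalIntegral.integral_const]
    · have h2 := hM f.fst
      have h3 : (1 + s) * ∫ y in a..b, ‖inner ℂ f.fst (U y)‖ ^ 2 ≤ (1 + s) * (M * ‖f.fst‖ ^ 2) :=
        mul_le_mul_of_nonneg_left h2 (by positivity)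
      have h4 : (1 + s) * (M * ‖f.fst‖ ^ 2) = (M + ε * (b - a)) * ‖f.fst‖ ^ 2 := by
        rw [hs]
        field_simp
      have h5 : (b - a) • ((1 + 1 / s) * (‖f.snd‖ ^ 2 * ε)) =
          (M + ε * (b - a)) * ‖f.snd‖ ^ 2 := by
        rw [hs, smul_eq_mul]
        field_simp
        ring
      rw [h4] at h3
      rw [h5, WithLp.prod_norm_sq_eq_of_L2, mul_add]
      linarith
    · exact (continuous_const.mul ((Continuous.inner continuous_const
        hUc).norm.pow 2)).intervalIntegrable _ _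
    · exact continuous_const.intervalIntegrable _ _

theorem kin_C1 {E : Type*} [NormedAddCommGroup E] [InnerProductSpace ℂ E] {a b : ℝ} (hab : a < b)
    (U V : ℝ → E) (hU : ∀ x, HasDerivAt U (V x) x) (hV : Continuous V) (ha : U a = 0) (hb : U b = 0)
    (M : ℝ) (hM0 : 0 < M) (hM : ∀ f : E, ∫ y in a..b, ‖inner ℂ f (U y)‖ ^ 2 ≤ M * ‖f‖ ^ 2) :
    (Real.pi / (C0 * M)) ^ 2 * ∫ x in a..b, ‖U x‖ ^ 6 ≤ 4 * ∫ x in a..b, ‖V x‖ ^ 2 := by
  have hC0 : 0 < C0 := by unfold C0; positivity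
  set I : ℝ := ∫ x in a..b, ‖U x‖ ^ 6
  set h : ℝ → ℝ := fun ε => (Real.pi / (C0 * (M + ε * (b - a)))) ^ 2 * I with hh
  have hcont : ContinuousAt h 0 := by
    have : C0 * (M + 0 * (b - a)) ≠ 0 := by
      rw [zero_mul, add_zero]; positivity
    rw [hh]
    fun_prop (disch := assumption)
  have h0 : h 0 = (Real.pi / (C0 * M)) ^ 2 * I := by
    rw [hh]; simp
  rw [← h0]
  have hlim : Filter.Tendsto h (nhdsWithin 0 (Set.Ioi 0)) (nhds (h 0)) :=
    hcont.tendsto.mono_left nhdsWithin_le_nhds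
  refine le_of_tendsto hlim ?_
  filter_upwards [self_mem_nhdsWithin] with ε hε
  exact cv_eps hab U V hU hV ha hb M hM0 hM ε hε

end P371
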