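import Vale.Agent.Lib.P371.Pot

/-! P371: the scalar one-dimensional Lieb-Thirring constant and the final bound. -/

open MeasureTheory

namespace P371

/-- admissible scalar potentials for the exponent γ: measurable, nonnegative, ∫ W^(γ+1/2) < ∞ -/
def IsPot (γ : ℝ) (W : ℝ → ℝ) : Prop :=
  Measurable W ∧ (∀ x, 0 ≤ W x) ∧ Integrable (fun x => W x ^ (γ + 1 / 2))

/-- Tr (H_W)_-^γ, the sum of |E|^γ over the negative eigenvalues E of H_W with multiplicity: the supremum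
of the sums ∑ |E_j|^γ over all finite L²-orthonormal families of eigenfunctions of H_W with negative
eigenvalues E_j -/
noncomputable def trNeg (γ : ℝ) (W : ℝ → ℝ) : ENNReal :=
  ⨆ (N : ℕ) (E : Fin N → ℝ) (u : Fin N → ℝ → ℂ) (v : Fin N → ℝ → ℂ) (_ : ∀ j, E j < 0)
    (_ : ∀ j, IsEigen W (E j) (u j) (v j)) (_ : IsON u), ENNReal.ofReal (∑ j, |E j| ^ γ)

/-- the scalar Lieb-Thirring constant L_γ(1): the least L in [0, ∞] with
Tr (H_W)_-^γ ≤ L ∫ W^(γ+1/2) for all admissible W -/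
noncomputable def LT (γ : ℝ) : ENNReal :=
  sInf {L : ENNReal | ∀ W : ℝ → ℝ, IsPot γ W →
    trNeg γ W ≤ L * ENNReal.ofReal (∫ x, W x ^ (γ + 1 / 2))}

theorem LT_le {γ : ℝ} (hγ : 1 ≤ γ) : LT γ ≤ ENNReal.ofReal (1.178 * Lcl γ) := by
  apply sInf_le
  intro W hW
  obtain ⟨h1, h2, h3⟩ := hW
  unfold trNeg
  refine iSup_le fun N => iSup_le fun E => iSup_le fun u => iSup_le fun v => iSup_le fun hE =>
    iSup_le fun he => iSup_le fun ho => ?_
  rw [← ENNReal.ofReal_mul (by have := Lcl_pos (lt_of_lt_of_le one_pos hγ); positivity)]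
  exact ENNReal.ofReal_le_ofReal (eig hγ W h1 h2 h3 E hE u v he ho)

end P371
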