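import Vale.Agent.Lib.P371.Sint

/-! P371 MODULE KERN (the kernel and the constant).
With C0 = 1.178 * sqrt 3 / 2 = 1.0201779..; the infimum allowed by the proof is
(2π / (∫_0^π sin^(4/3))^3)^(1/2) = 1.0196485. `kk` is the kernel cos^2_+(d/2). -/

open MeasureTheory Set intervalIntegral

namespace P371

/-- cos²(d/2) cut off at |d| = π -/
noncomputable def kk (d : ℝ) : ℝ := if |d| < Real.pi then Real.cos (d / 2) ^ 2 else 0

/-- the constant 1.178 * √3 / 2 -/
noncomputable def C0 : ℝ := 1.178 * Real.sqrt 3 / 2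

/-- a rational lower bound of ∫_0^π (sin y)^(4/3) dy -/
noncomputable def I0 : ℝ := 1.8209

theorem I0_le : I0 ≤ ∫ y in (0 : ℝ)..Real.pi, (Real.sin y) ^ (4 / 3 : ℝ) := sin_int

theorem C0_num : 2 * Real.pi ≤ I0 ^ 3 * C0 ^ 2 := by
  have h3 : Real.sqrt 3 ^ 2 = 3 := Real.sq_sqrt (by norm_num)
  have hC : C0 ^ 2 = 1.178 ^ 2 * 3 / 4 := by
    unfold C0
    rw [div_pow, mul_pow, h3]
    norm_num
  rw [hC]
  unfold I0
  have hp := Real.pi_lt_d4
  norm_num at hp ⊢
  linarith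

end P371
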