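import Vale.Agent.Lib.P371.Curve

/-! P371 MODULE KIN (kinetic inequality on the line for H^1 families).
E = EuclideanSpace ℂ (Fin N). Step 1 (CPT): V ∈ L^2([a,b];E), ∫ V = 0, U x = ∫ in a..x, V: choose continuous
W_n → V in L^2([a,b]) (density), replace W_n by W_n - mean, U_n = ∫ W_n; sup |U_n - U| ≤ √(b-a) ‖W_n - V‖_2;
apply kin_C1 with M_n → M. Step 2: for R large with ‖U R‖^2 + ‖U (-R)‖^2 small (exists since ‖U‖^2 is integrable)
use on [-R-1, R+1] the linear extension to 0; R → ∞. -/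

open MeasureTheory Set intervalIntegral Filter Topology

namespace P371

/-- `u ∈ H¹(ℝ)` with weak derivative `v` (both in L², u a primitive of v) -/
structure IsH1 (u v : ℝ → ℂ) : Prop where
  memLp_u : MemLp u 2 volume
  memLp_v : MemLp v 2 volume
  ftc : ∀ x y : ℝ, u y - u x = ∫ s in x..y, v s

section approx

set_option linter.unusedSectionVars false

variable {E : Type*} [NormedAddCommGroup E] [NormedSpace ℝ E] {a b : ℝ}

theorem kin_sq_integrable {V : ℝ → E} (hab : a ≤ b) (hV : MemLp V 2 (volume.restrict (Ioc a b))) :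
    IntervalIntegrable (fun x => ‖V x‖ ^ 2) volume a b := by
  rw [intervalIntegrable_iff_integrableOn_Ioc_of_le hab]
  exact hV.integrable_norm_pow two_ne_zero

theorem kin_integrable {V : ℝ → E} (hab : a ≤ b) (hV : MemLp V 2 (volume.restrict (Ioc a b))) :
    IntervalIntegrable V volume a b := by
  rw [intervalIntegrable_iff_integrableOn_Ioc_of_le hab]
  exact hV.integrable one_le_two

theorem kin_approx {V : ℝ → E} (hab : a ≤ b) (hV : MemLp V 2 (volume.restrict (Ioc a b)))
    {ε : ℝ} (hε : 0 < ε) :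
    ∃ g : ℝ → E, Continuous g ∧ MemLp (fun x => g x - V x) 2 (volume.restrict (Ioc a b)) ∧
      ∫ x in a..b, ‖g x - V x‖ ^ 2 ≤ ε ^ 2 := by
  obtain ⟨g, hg, hg2⟩ := hV.exists_boundedContinuous_eLpNorm_sub_le (ENNReal.ofNat_ne_top)
    (ε := ENNReal.ofReal ε) (by simpa using hε)
  have hm : MemLp (fun x => g x - V x) 2 (volume.restrict (Ioc a b)) := hg2.sub hV
  refine ⟨g, g.continuous, hm, ?_⟩
  have h1 : eLpNorm (fun x => g x - V x) 2 (volume.restrict (Ioc a b)) ≤ ENNReal.ofReal ε := by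
    have h2 : eLpNorm (V - (g : ℝ → E)) 2 (volume.restrict (Ioc a b)) =
        eLpNorm (fun x => g x - V x) 2 (volume.restrict (Ioc a b)) := by
      rw [← eLpNorm_neg]
      congr 1
      funext x
      simp
    rwa [← h2]
  rw [hm.eLpNorm_eq_integral_rpow_norm two_ne_zero ENNReal.ofNat_ne_top,
    ENNReal.ofReal_le_ofReal_iff hε.le] at h1
  rw [integral_of_le hab]
  have h3 : ∫ x in Ioc a b, ‖g x - V x‖ ^ 2 = ∫ x in Ioc a b, ‖g x - V x‖ ^ (2 : ℝ) := by
    congr 1
    funext x
    rw [Real.rpow_two]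
  have h4 : 0 ≤ ∫ x in Ioc a b, ‖g x - V x‖ ^ 2 := integral_nonneg fun x => by positivity
  simp only [ENNReal.toReal_ofNat] at h1
  rw [← h3] at h1
  have h5 : ((∫ x in Ioc a b, ‖g x - V x‖ ^ 2) ^ (2 : ℝ)⁻¹) ^ 2 =
      ∫ x in Ioc a b, ‖g x - V x‖ ^ 2 := by
    rw [← Real.rpow_natCast, ← Real.rpow_mul h4]
    norm_num
  rw [← h5]
  exact pow_le_pow_left₀ (Real.rpow_nonneg h4 _) h1 2

theorem kin_L1_le {h : ℝ → E} (hab : a ≤ b) (hm : MemLp h 2 (volume.restrict (Ioc a b)))
    {ε : ℝ} (hε : 0 < ε) (h2 : ∫ x in a..b, ‖h x‖ ^ 2 ≤ ε ^ 2) :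
    ∫ x in a..b, ‖h x‖ ≤ (b - a + 1) * ε := by
  have h3 : ∫ x in a..b, ‖h x‖ ≤ ∫ x in a..b, (ε / 2 + (1 / (2 * ε)) * ‖h x‖ ^ 2) := by
    refine integral_mono_on hab (kin_integrable hab hm).norm
      (intervalIntegrable_const.add ((kin_sq_integrable hab hm).const_mul _)) fun x _ => ?_
    have : 0 ≤ (‖h x‖ - ε) ^ 2 / (2 * ε) := by positivity
    have e : (‖h x‖ - ε) ^ 2 / (2 * ε) = ε / 2 + (1 / (2 * ε)) * ‖h x‖ ^ 2 - ‖h x‖ := by
      field_simp
      ring
    linarith
  refine h3.trans ?_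
  rw [integral_add intervalIntegrable_const ((kin_sq_integrable hab hm).const_mul _),
    intervalIntegral.integral_const, intervalIntegral.integral_const_mul, smul_eq_mul]
  have h4 : 1 / (2 * ε) * ∫ x in a..b, ‖h x‖ ^ 2 ≤ 1 / (2 * ε) * ε ^ 2 :=
    mul_le_mul_of_nonneg_left h2 (by positivity)
  have h5 : 1 / (2 * ε) * ε ^ 2 = ε / 2 := by
    field_simp
  have h6 : 0 ≤ (b - a) * (ε / 2) := mul_nonneg (by linarith) (by positivity)
  nlinarith

end approx

theorem kin_L2 {E : Type*} [NormedAddCommGroup E] [InnerProductSpace ℂ E] [CompleteSpace E]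
    {a b : ℝ} (hab : a < b) (U V : ℝ → E) (hV : MemLp V 2 (volume.restrict (Ioc a b)))
    (hU : ∀ x ∈ Icc a b, U x = ∫ t in a..x, V t) (hb : ∫ t in a..b, V t = 0)
    (M : ℝ) (hM0 : 0 < M) (hM : ∀ f : E, ∫ y in a..b, ‖inner ℂ f (U y)‖ ^ 2 ≤ M * ‖f‖ ^ 2) :
    (Real.pi / (C0 * M)) ^ 2 * ∫ x in a..b, ‖U x‖ ^ 6 ≤ 4 * ∫ x in a..b, ‖V x‖ ^ 2 := by
  set D : ℝ := b - a + 1 with hD
  have hba : 0 < b - a := by linarith
  have hD0 : 0 < D := by linarith
  set e : ℕ → ℝ := fun n => 1 / ((n : ℝ) + 1) with he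
  have he0 : ∀ n, 0 < e n := fun n => by positivity
  have helim : Tendsto e atTop (𝓝 0) := tendsto_one_div_add_atTop_nhds_zero_nat
  choose g hg hgm hg2 using fun n => kin_approx hab.le hV (he0 n)
  have hVi := kin_integrable hab.le hV
  have hV2 := kin_sq_integrable hab.le hV
  set m : ℕ → E := fun n => (1 / (b - a)) • ∫ t in a..b, g n t with hm
  set W : ℕ → ℝ → E := fun n x => g n x - m n with hW
  have hWc : ∀ n, Continuous (W n) := fun n => (hg n).sub continuous_const
  set Un : ℕ → ℝ → E := fun n x => ∫ t in a..x, W n t with hUn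
  have hUd : ∀ n x, HasDerivAt (Un n) (W n x) x := fun n x =>
    integral_hasDerivAt_right ((hWc n).intervalIntegrable _ _)
      ((hWc n).stronglyMeasurableAtFilter _ _) (hWc n).continuousAt
  have hL1 : ∀ n, ∫ x in a..b, ‖g n x - V x‖ ≤ D * e n := fun n =>
    kin_L1_le hab.le (hgm n) (he0 n) (hg2 n)
  have hgV : ∀ n, IntervalIntegrable (fun x => g n x - V x) volume a b := fun n =>
    kin_integrable hab.le (hgm n)
  -- the mean
  have hmn : ∀ n, (b - a) * ‖m n‖ ≤ D * e n := by
    intro n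
    have h1 : (b - a) • m n = ∫ t in a..b, (g n t - V t) := by
      rw [hm, smul_smul, mul_one_div_cancel hba.ne', one_smul,
        integral_sub ((hg n).intervalIntegrable _ _) hVi, hb, sub_zero]
    have h2 : (b - a) * ‖m n‖ = ‖∫ t in a..b, (g n t - V t)‖ := by
      rw [← h1, norm_smul (b - a) (m n), Real.norm_of_nonneg hba.le]
    rw [h2]
    exact (intervalIntegral.norm_integral_le_integral_norm hab.le).trans (hL1 n)
  have hmn' : ∀ n, ‖m n‖ ≤ D * e n / (b - a) := fun n => by
    rw [le_div_iff₀ hba]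
    linarith [hmn n]
  -- uniform distance
  have hdist : ∀ n, ∀ x ∈ Icc a b, ‖Un n x - U x‖ ≤ 2 * D * e n := by
    intro n x hx
    have hi : IntervalIntegrable (fun x => g n x - V x) volume a x :=
      (hgV n).mono_set (by rw [uIcc_of_le hx.1, uIcc_of_le hab.le]; exact Icc_subset_Icc_right hx.2)
    have hVx : IntervalIntegrable V volume a x :=
      hVi.mono_set (by rw [uIcc_of_le hx.1, uIcc_of_le hab.le]; exact Icc_subset_Icc_right hx.2)
    have h1 : Un n x - U x = (∫ t in a..x, (g n t - V t)) - (x - a) • m n := by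
      rw [hU x hx, hUn]
      simp only [hW]
      rw [integral_sub ((hg n).intervalIntegrable _ _) intervalIntegrable_const,
        integral_sub ((hg n).intervalIntegrable _ _) hVx, intervalIntegral.integral_const]
      abel
    rw [h1]
    have h2 : ‖∫ t in a..x, (g n t - V t)‖ ≤ D * e n := by
      refine (intervalIntegral.norm_integral_le_integral_norm hx.1).trans (le_trans ?_ (hL1 n))
      refine integral_mono_interval le_rfl hx.1 hx.2 (Eventually.of_forall fun t => norm_nonneg _)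
        (hgV n).norm
    have h3 : ‖(x - a) • m n‖ ≤ D * e n := by
      rw [norm_smul, Real.norm_of_nonneg (by linarith [hx.1])]
      refine le_trans (mul_le_mul_of_nonneg_right ?_ (norm_nonneg _)) (hmn n)
      linarith [hx.2]
    refine (norm_sub_le _ _).trans ?_
    linarith
  -- the L2 norm of the derivative
  set K : ℝ := 2 + 2 * D ^ 2 / (b - a) with hK
  have hWV : ∀ n, ∫ x in a..b, ‖W n x‖ ^ 2 ≤
      (1 + e n) * (∫ x in a..b, ‖V x‖ ^ 2) + (e n ^ 2 + e n) * K := by
    intro n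
    have hen := he0 n
    have hI2 := kin_sq_integrable hab.le (hgm n)
    have h1 : ∫ x in a..b, ‖W n x‖ ^ 2 ≤ ∫ x in a..b, ((1 + e n) * ‖V x‖ ^ 2 +
        ((1 + 1 / e n) * 2 * ‖g n x - V x‖ ^ 2 + (1 + 1 / e n) * 2 * ‖m n‖ ^ 2)) := by
      refine integral_mono_on hab.le (((hWc n).norm.pow 2).intervalIntegrable _ _)
        ((hV2.const_mul _).add ((hI2.const_mul _).add intervalIntegrable_const)) fun x _ => ?_
      have h2 : ‖W n x‖ ≤ ‖V x‖ + (‖g n x - V x‖ + ‖m n‖) := by
        have : W n x = V x + ((g n x - V x) - m n) := by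
          simp only [hW]
          abel
        rw [this]
        refine (norm_add_le _ _).trans ?_
        gcongr
        exact norm_sub_le _ _
      have h3 : ‖W n x‖ ^ 2 ≤ (‖V x‖ + (‖g n x - V x‖ + ‖m n‖)) ^ 2 :=
        pow_le_pow_left₀ (norm_nonneg _) h2 2
      have h4 : ∀ p q : ℝ, (p + q) ^ 2 ≤ (1 + e n) * p ^ 2 + (1 + 1 / e n) * q ^ 2 := by
        intro p q
        have : 0 ≤ (e n * p - q) ^ 2 / e n := by positivity
        have e1 : (e n * p - q) ^ 2 / e n =
            (1 + e n) * p ^ 2 + (1 + 1 / e n) * q ^ 2 - (p + q) ^ 2 := by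
          field_simp
          ring
        linarith
      have h5 : (‖g n x - V x‖ + ‖m n‖) ^ 2 ≤ 2 * ‖g n x - V x‖ ^ 2 + 2 * ‖m n‖ ^ 2 := by
        nlinarith [sq_nonneg (‖g n x - V x‖ - ‖m n‖)]
      have h6 := h4 ‖V x‖ (‖g n x - V x‖ + ‖m n‖)
      have h7 : (1 + 1 / e n) * (‖g n x - V x‖ + ‖m n‖) ^ 2 ≤
          (1 + 1 / e n) * (2 * ‖g n x - V x‖ ^ 2 + 2 * ‖m n‖ ^ 2) :=
        mul_le_mul_of_nonneg_left h5 (by positivity)
      linarith
    refine h1.trans ?_
    rw [integral_add (hV2.const_mul _) ((hI2.const_mul _).add intervalIntegrable_const),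
      integral_add (hI2.const_mul _) intervalIntegrable_const, intervalIntegral.integral_const,
      intervalIntegral.integral_const_mul, intervalIntegral.integral_const_mul, smul_eq_mul]
    have h8 : (1 + 1 / e n) * 2 * ∫ x in a..b, ‖g n x - V x‖ ^ 2 ≤
        (1 + 1 / e n) * 2 * e n ^ 2 := mul_le_mul_of_nonneg_left (hg2 n) (by positivity)
    have h9 : (b - a) * ((1 + 1 / e n) * 2 * ‖m n‖ ^ 2) ≤
        (b - a) * ((1 + 1 / e n) * 2 * (D * e n / (b - a)) ^ 2) := by
      refine mul_le_mul_of_nonneg_left (mul_le_mul_of_nonneg_left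
        (pow_le_pow_left₀ (norm_nonneg _) (hmn' n) 2) (by positivity)) hba.le
    have h10 : (1 + 1 / e n) * 2 * e n ^ 2 +
        (b - a) * ((1 + 1 / e n) * 2 * (D * e n / (b - a)) ^ 2) = (e n ^ 2 + e n) * K := by
      rw [hK]
      have := hba.ne'
      field_simp
    linarith
  -- the constants
  set Mn : ℕ → ℝ := fun n => (1 + e n) * M + (e n ^ 2 + e n) * (4 * D ^ 2 * (b - a)) with hMn
  have hMn0 : ∀ n, 0 < Mn n := fun n => by
    have := he0 n
    positivity
  have hUcont : ContinuousOn U (Icc a b) := by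
    have h1 : ContinuousOn (fun x => ∫ t in a..x, V t) (Icc a b) := by
      have := intervalIntegral.continuousOn_primitive_interval (μ := volume) (f := V)
        (a := a) (b := b) (by
          rw [uIcc_of_le hab.le]
          rw [integrableOn_Icc_iff_integrableOn_Ioc]
          exact (intervalIntegrable_iff_integrableOn_Ioc_of_le hab.le).1 hVi)
      rwa [uIcc_of_le hab.le] at this
    exact h1.congr hU
  have hUnc : ∀ n, Continuous (Un n) := fun n =>
    continuous_iff_continuousAt.2 fun x => (hUd n x).continuousAt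
  have hMle : ∀ n, ∀ f : E, ∫ y in a..b, ‖inner ℂ f (Un n y)‖ ^ 2 ≤ Mn n * ‖f‖ ^ 2 := by
    intro n f
    have hen := he0 n
    have hci : IntervalIntegrable (fun y => ‖inner ℂ f (U y)‖ ^ 2) volume a b := by
      apply ContinuousOn.intervalIntegrable
      rw [uIcc_of_le hab.le]
      exact ((continuousOn_const.inner hUcont).norm).pow 2
    have h1 : ∫ y in a..b, ‖inner ℂ f (Un n y)‖ ^ 2 ≤ ∫ y in a..b,
        ((1 + e n) * ‖inner ℂ f (U y)‖ ^ 2 + (1 + 1 / e n) * (‖f‖ * (2 * D * e n)) ^ 2) := by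
      refine integral_mono_on hab.le ?_ ((hci.const_mul _).add intervalIntegrable_const)
        fun y hy => ?_
      · exact (((continuous_const.inner (hUnc n)).norm).pow 2).intervalIntegrable _ _
      · have h2 : ‖inner ℂ f (Un n y)‖ ≤ ‖inner ℂ f (U y)‖ + ‖f‖ * (2 * D * e n) := by
          have : Un n y = U y + (Un n y - U y) := by abel
          rw [this, inner_add_right]
          refine (norm_add_le _ _).trans ?_
          gcongr
          refine (norm_inner_le_norm _ _).trans ?_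
          exact mul_le_mul_of_nonneg_left (hdist n y hy) (norm_nonneg _)
        have h3 := pow_le_pow_left₀ (norm_nonneg _) h2 2
        have h4 : ∀ p q : ℝ, (p + q) ^ 2 ≤ (1 + e n) * p ^ 2 + (1 + 1 / e n) * q ^ 2 := by
          intro p q
          have : 0 ≤ (e n * p - q) ^ 2 / e n := by positivity
          have e1 : (e n * p - q) ^ 2 / e n =
              (1 + e n) * p ^ 2 + (1 + 1 / e n) * q ^ 2 - (p + q) ^ 2 := by
            field_simp
            ring
          linarith
        exact h3.trans (h4 _ _)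
    refine h1.trans ?_
    rw [integral_add (hci.const_mul _) intervalIntegrable_const, intervalIntegral.integral_const,
      intervalIntegral.integral_const_mul, smul_eq_mul]
    have h5 : (1 + e n) * ∫ y in a..b, ‖inner ℂ f (U y)‖ ^ 2 ≤ (1 + e n) * (M * ‖f‖ ^ 2) :=
      mul_le_mul_of_nonneg_left (hM f) (by positivity)
    have h6 : (b - a) * ((1 + 1 / e n) * (‖f‖ * (2 * D * e n)) ^ 2) =
        (e n ^ 2 + e n) * (4 * D ^ 2 * (b - a)) * ‖f‖ ^ 2 := by
      field_simp
      ring
    rw [h6]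
    simp only [hMn]
    nlinarith
  -- apply the C1 result
  have hUa : ∀ n, Un n a = 0 := fun n => by simp [hUn]
  have hUb : ∀ n, Un n b = 0 := by
    intro n
    simp only [hUn, hW, hm]
    rw [integral_sub ((hg n).intervalIntegrable _ _) intervalIntegrable_const, intervalIntegral.integral_const,
      smul_smul, mul_one_div_cancel hba.ne', one_smul, sub_self]
  have hmain : ∀ n, (Real.pi / (C0 * Mn n)) ^ 2 * ∫ x in a..b, ‖Un n x‖ ^ 6 ≤
      4 * ((1 + e n) * (∫ x in a..b, ‖V x‖ ^ 2) + (e n ^ 2 + e n) * K) := by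
    intro n
    refine (kin_C1 hab (Un n) (W n) (hUd n) (hWc n) (hUa n) (hUb n) (Mn n) (hMn0 n)
      (hMle n)).trans ?_
    exact mul_le_mul_of_nonneg_left (hWV n) (by norm_num)
  -- limits
  have hlimM : Tendsto Mn atTop (𝓝 M) := by
    have : Tendsto Mn atTop (𝓝 ((1 + 0) * M + (0 ^ 2 + 0) * (4 * D ^ 2 * (b - a)))) :=
      ((tendsto_const_nhds.add helim).mul_const _).add (((helim.pow 2).add helim).mul_const _)
    simpa using this
  have hC0 : 0 < C0 := by
    unfold C0
    positivity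
  have hlimR : Tendsto (fun n => 4 * ((1 + e n) * (∫ x in a..b, ‖V x‖ ^ 2) +
      (e n ^ 2 + e n) * K)) atTop (𝓝 (4 * ((1 + 0) * (∫ x in a..b, ‖V x‖ ^ 2) +
      (0 ^ 2 + 0) * K))) :=
    (((tendsto_const_nhds.add helim).mul_const _).add
      (((helim.pow 2).add helim).mul_const _)).const_mul _
  obtain ⟨B, hB⟩ := isCompact_Icc.exists_bound_of_continuousOn hUcont
  have hlimU : Tendsto (fun n => ∫ x in a..b, ‖Un n x‖ ^ 6) atTop
      (𝓝 (∫ x in a..b, ‖U x‖ ^ 6)) := by
    refine tendsto_integral_filter_of_dominated_convergence (fun _ => (B + 2 * D) ^ 6) ?_ ?_ ?_ ?_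
    · refine Eventually.of_forall fun n => ?_
      exact ((hUnc n).norm.pow 6).aestronglyMeasurable
    · refine Eventually.of_forall fun n => ae_of_all _ fun x hx => ?_
      rw [uIoc_of_le hab.le] at hx
      have hx' : x ∈ Icc a b := ⟨hx.1.le, hx.2⟩
      rw [Real.norm_of_nonneg (by positivity)]
      refine pow_le_pow_left₀ (norm_nonneg _) ?_ 6
      have h1 := hdist n x hx'
      have h2 := hB x hx'
      have h3 : e n ≤ 1 := by
        simp only [he]
        rw [div_le_one (by positivity)]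
        linarith [(Nat.cast_nonneg n : (0 : ℝ) ≤ n)]
      have h4 : ‖Un n x‖ ≤ ‖U x‖ + ‖Un n x - U x‖ := by
        have : Un n x = U x + (Un n x - U x) := by abel
        calc ‖Un n x‖ = ‖U x + (Un n x - U x)‖ := by rw [← this]
          _ ≤ _ := norm_add_le _ _
      nlinarith
    · exact intervalIntegrable_const
    · refine ae_of_all _ fun x hx => ?_
      rw [uIoc_of_le hab.le] at hx
      have hx' : x ∈ Icc a b := ⟨hx.1.le, hx.2⟩
      have h1 : Tendsto (fun n => Un n x) atTop (𝓝 (U x)) := by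
        rw [tendsto_iff_norm_sub_tendsto_zero]
        have h2 : Tendsto (fun n => 2 * D * e n) atTop (𝓝 0) := by
          have := helim.const_mul (2 * D)
          rwa [mul_zero] at this
        exact squeeze_zero (fun n => norm_nonneg _) (fun n => hdist n x hx') h2
      exact (h1.norm.pow 6)
  have hlimL : Tendsto (fun n => (Real.pi / (C0 * Mn n)) ^ 2 * ∫ x in a..b, ‖Un n x‖ ^ 6) atTop
      (𝓝 ((Real.pi / (C0 * M)) ^ 2 * ∫ x in a..b, ‖U x‖ ^ 6)) := by
    refine Tendsto.mul ?_ hlimU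
    refine Tendsto.pow ?_ 2
    refine tendsto_const_nhds.div (hlimM.const_mul _) (by positivity)
  have := le_of_tendsto_of_tendsto' hlimL hlimR hmain
  simpa using this

/-! ### the line -/

theorem kin_cut {E : Type*} [NormedAddCommGroup E] [InnerProductSpace ℂ E] [CompleteSpace E]
    (U V : ℝ → E) (hU2 : MemLp U 2 volume) (hV2 : MemLp V 2 volume)
    (hftc : ∀ x y : ℝ, U y - U x = ∫ s in x..y, V s)
    (hM : ∀ f : E, ∫ y, ‖inner ℂ f (U y)‖ ^ 2 ≤ ‖f‖ ^ 2) {R : ℝ} (hR : 0 < R) :
    (Real.pi / (C0 * (1 + (‖U R‖ ^ 2 + ‖U (-R)‖ ^ 2)))) ^ 2 * ∫ x in (-R)..R, ‖U x‖ ^ 6 ≤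
      4 * ((∫ x, ‖V x‖ ^ 2) + (‖U R‖ ^ 2 + ‖U (-R)‖ ^ 2)) := by
  set δ : ℝ := ‖U R‖ ^ 2 + ‖U (-R)‖ ^ 2 with hδ
  have hδ0 : 0 ≤ δ := by positivity
  set a : ℝ := -R - 1 with ha
  set b : ℝ := R + 1 with hb
  have hab : a < b := by linarith
  have haR : a ≤ -R := by linarith
  have hRb : R ≤ b := by linarith
  have hRR : -R ≤ R := by linarith
  set Vt : ℝ → E := fun x => if x ≤ -R then U (-R) else if x ≤ R then V x else -U R with hVt
  set Ut : ℝ → E := fun x => if x ≤ -R then (x - a) • U (-R) else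
    if x ≤ R then U x else (b - x) • U R with hUt
  have hVtm : MemLp Vt 2 (volume.restrict (Ioc a b)) := by
    have h1 : Vt = (Iic (-R)).indicator (fun _ => U (-R)) + ((Ioc (-R) R).indicator V +
        (Ioi R).indicator (fun _ => -U R)) := by
      funext x
      simp only [hVt, Pi.add_apply, indicator_apply, mem_Iic, mem_Ioc, mem_Ioi]
      by_cases h1 : x ≤ -R
      · have h2 : ¬ (-R < x ∧ x ≤ R) := fun h => absurd h.1 (not_lt.2 h1)
        have h3 : ¬ (R < x) := by linarith
        simp [h1, h2, h3]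
      · by_cases h2 : x ≤ R
        · have h3 : ¬ (R < x) := by linarith
          simp [h1, h2, h3, not_le.1 h1]
        · simp [h1, h2, not_le.1 h2]
    rw [h1]
    refine MemLp.add ((memLp_const _).indicator measurableSet_Iic) (MemLp.add
      ((hV2.restrict _).indicator measurableSet_Ioc) ((memLp_const _).indicator measurableSet_Ioi))
  have hVi : ∀ x y : ℝ, IntervalIntegrable V volume x y := fun x y => by
    have h1 : LocallyIntegrable V volume := hV2.locallyIntegrable one_le_two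
    exact (h1.integrableOn_isCompact isCompact_uIcc).intervalIntegrable
  have hVti := kin_integrable hab.le hVtm
  have hUc : Continuous U := by
    have h1 : U = fun x => U 0 + ∫ s in (0 : ℝ)..x, V s := by
      funext x
      rw [← hftc 0 x]
      abel
    rw [h1]
    exact continuous_const.add (intervalIntegral.continuous_primitive hVi 0)
  -- pieces of the integral of Vt
  have hp1 : ∀ x, x ≤ -R → a ≤ x → ∫ t in a..x, Vt t = (x - a) • U (-R) := by
    intro x hx hax
    rw [← intervalIntegral.integral_const]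
    refine integral_congr fun t ht => ?_
    rw [uIcc_of_le hax] at ht
    simp only [hVt]
    rw [if_pos (ht.2.trans hx)]
  have hp2 : ∀ x, -R ≤ x → x ≤ R → ∫ t in (-R)..x, Vt t = U x - U (-R) := by
    intro x hx hxR
    rw [hftc]
    refine integral_congr_ae (Eventually.of_forall fun t ht => ?_)
    rw [uIoc_of_le hx] at ht
    simp only [hVt]
    rw [if_neg (not_le.2 ht.1), if_pos (ht.2.trans hxR)]
  have hp3 : ∀ x, R ≤ x → ∫ t in R..x, Vt t = -((x - R) • U R) := by
    intro x hx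
    rw [← smul_neg, ← intervalIntegral.integral_const]
    refine integral_congr_ae (Eventually.of_forall fun t ht => ?_)
    rw [uIoc_of_le hx] at ht
    simp only [hVt]
    rw [if_neg (by linarith [ht.1]), if_neg (not_le.2 ht.1)]
  have hsub : ∀ x y, a ≤ x → x ≤ y → y ≤ b → IntervalIntegrable Vt volume x y := by
    intro x y h1 h2 h3
    exact hVti.mono_set (by
      rw [uIcc_of_le h2, uIcc_of_le hab.le]
      exact Icc_subset_Icc h1 h3)
  have hUeq : ∀ x ∈ Icc a b, Ut x = ∫ t in a..x, Vt t := by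
    intro x hx
    simp only [hUt]
    by_cases h1 : x ≤ -R
    · rw [if_pos h1, hp1 x h1 hx.1]
    · have h1' : -R ≤ x := (not_le.1 h1).le
      rw [if_neg h1]
      have h0 : ∫ t in a..(-R), Vt t = U (-R) := by
        rw [hp1 (-R) le_rfl haR]
        have : -R - a = 1 := by rw [ha]; ring
        rw [this, one_smul]
      by_cases h2 : x ≤ R
      · rw [if_pos h2, ← integral_add_adjacent_intervals (hsub a (-R) le_rfl haR (by linarith))
          (hsub (-R) x haR h1' hx.2), h0, hp2 x h1' h2]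
        abel
      · have h2' : R ≤ x := (not_le.1 h2).le
        rw [if_neg h2, ← integral_add_adjacent_intervals (hsub a (-R) le_rfl haR (by linarith))
          (hsub (-R) x haR h1' hx.2), ← integral_add_adjacent_intervals
          (hsub (-R) R haR hRR hRb) (hsub R x (by linarith) h2' hx.2), h0, hp2 R hRR le_rfl,
          hp3 x h2']
        have : b - x = 1 - (x - R) := by rw [hb]; ring
        rw [this, sub_smul, one_smul]
        abel
  have hVb : ∫ t in a..b, Vt t = 0 := by
    rw [← hUeq b ⟨hab.le, le_rfl⟩]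
    simp only [hUt]
    rw [if_neg (by linarith), if_neg (by linarith), sub_self, zero_smul]
  have hUtc : ContinuousOn Ut (Icc a b) := by
    have h1 : ContinuousOn (fun x => ∫ t in a..x, Vt t) (Icc a b) := by
      have := intervalIntegral.continuousOn_primitive_interval (μ := volume) (f := Vt)
        (a := a) (b := b) (by
          rw [uIcc_of_le hab.le]
          rw [integrableOn_Icc_iff_integrableOn_Ioc]
          exact (intervalIntegrable_iff_integrableOn_Ioc_of_le hab.le).1 hVti)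
      rwa [uIcc_of_le hab.le] at this
    exact h1.congr hUeq
  -- splitting of integrals
  have hsplit : ∀ F : ℝ → ℝ, IntervalIntegrable F volume a b →
      ∫ x in a..b, F x = (∫ x in a..(-R), F x) + ((∫ x in (-R)..R, F x) + ∫ x in R..b, F x) := by
    intro F hF
    have hs : ∀ x y, a ≤ x → x ≤ y → y ≤ b → IntervalIntegrable F volume x y := by
      intro x y h1 h2 h3
      exact hF.mono_set (by
        rw [uIcc_of_le h2, uIcc_of_le hab.le]
        exact Icc_subset_Icc h1 h3)
    rw [integral_add_adjacent_intervals (hs (-R) R haR hRR hRb) (hs R b (by linarith) hRb le_rfl),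
      integral_add_adjacent_intervals (hs a (-R) le_rfl haR (by linarith))
        (hs (-R) b haR (by linarith) le_rfl)]
  have hV2i : Integrable (fun x => ‖V x‖ ^ 2) volume := hV2.integrable_norm_pow two_ne_zero
  have hmid : ∀ F : ℝ → ℝ, Integrable F volume → (∀ x, 0 ≤ F x) →
      ∫ x in (-R)..R, F x ≤ ∫ x, F x := by
    intro F hF hF0
    rw [integral_of_le hRR]
    exact setIntegral_le_integral hF (Eventually.of_forall hF0)
  -- bound on the derivative
  have hVle : ∫ x in a..b, ‖Vt x‖ ^ 2 ≤ (∫ x, ‖V x‖ ^ 2) + δ := by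
    rw [hsplit _ (kin_sq_integrable hab.le hVtm)]
    have e1 : ∫ x in a..(-R), ‖Vt x‖ ^ 2 = ‖U (-R)‖ ^ 2 := by
      have : ∫ x in a..(-R), ‖Vt x‖ ^ 2 = ∫ x in a..(-R), ‖U (-R)‖ ^ 2 := by
        refine integral_congr fun t ht => ?_
        rw [uIcc_of_le haR] at ht
        simp only [hVt]
        rw [if_pos ht.2]
      rw [this, intervalIntegral.integral_const, ha, smul_eq_mul]
      ring
    have e2 : ∫ x in (-R)..R, ‖Vt x‖ ^ 2 = ∫ x in (-R)..R, ‖V x‖ ^ 2 := by
      refine integral_congr_ae (Eventually.of_forall fun t ht => ?_)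
      rw [uIoc_of_le hRR] at ht
      simp only [hVt]
      rw [if_neg (not_le.2 ht.1), if_pos ht.2]
    have e3 : ∫ x in R..b, ‖Vt x‖ ^ 2 = ‖U R‖ ^ 2 := by
      have : ∫ x in R..b, ‖Vt x‖ ^ 2 = ∫ x in R..b, ‖U R‖ ^ 2 := by
        refine integral_congr_ae (Eventually.of_forall fun t ht => ?_)
        rw [uIoc_of_le hRb] at ht
        simp only [hVt]
        rw [if_neg (by linarith [ht.1]), if_neg (not_le.2 ht.1), norm_neg]
      rw [this, intervalIntegral.integral_const, hb, smul_eq_mul]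
      ring
    rw [e1, e2, e3]
    have := hmid _ hV2i (fun x => by positivity)
    linarith
  -- bound on the overlap
  have hMle : ∀ f : E, ∫ y in a..b, ‖inner ℂ f (Ut y)‖ ^ 2 ≤ (1 + δ) * ‖f‖ ^ 2 := by
    intro f
    have hFi : IntervalIntegrable (fun y => ‖inner ℂ f (Ut y)‖ ^ 2) volume a b := by
      apply ContinuousOn.intervalIntegrable
      rw [uIcc_of_le hab.le]
      exact ((continuousOn_const.inner hUtc).norm).pow 2
    rw [hsplit _ hFi]
    have hF1 : IntervalIntegrable (fun y => ‖inner ℂ f (Ut y)‖ ^ 2) volume a (-R) :=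
      hFi.mono_set (by
        rw [uIcc_of_le haR, uIcc_of_le hab.le]
        exact Icc_subset_Icc_right (by linarith))
    have hF3 : IntervalIntegrable (fun y => ‖inner ℂ f (Ut y)‖ ^ 2) volume R b :=
      hFi.mono_set (by
        rw [uIcc_of_le hRb, uIcc_of_le hab.le]
        exact Icc_subset_Icc_left (by linarith))
    have e1 : ∫ y in a..(-R), ‖inner ℂ f (Ut y)‖ ^ 2 ≤ ‖f‖ ^ 2 * ‖U (-R)‖ ^ 2 := by
      have h1 : ∫ y in a..(-R), ‖inner ℂ f (Ut y)‖ ^ 2 ≤
          ∫ y in a..(-R), ‖f‖ ^ 2 * ‖U (-R)‖ ^ 2 := by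
        refine integral_mono_on haR hF1 intervalIntegrable_const fun y hy => ?_
        rw [← mul_pow]
        refine pow_le_pow_left₀ (norm_nonneg _) ((norm_inner_le_norm _ _).trans ?_) 2
        refine mul_le_mul_of_nonneg_left ?_ (norm_nonneg _)
        simp only [hUt]
        rw [if_pos hy.2, norm_smul, Real.norm_of_nonneg (by linarith [hy.1])]
        refine mul_le_of_le_one_left (norm_nonneg _) ?_
        linarith [hy.2]
      refine h1.trans (le_of_eq ?_)
      rw [intervalIntegral.integral_const, ha, smul_eq_mul]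
      ring
    have e3 : ∫ y in R..b, ‖inner ℂ f (Ut y)‖ ^ 2 ≤ ‖f‖ ^ 2 * ‖U R‖ ^ 2 := by
      have h1 : ∫ y in R..b, ‖inner ℂ f (Ut y)‖ ^ 2 ≤
          ∫ y in R..b, ‖f‖ ^ 2 * ‖U R‖ ^ 2 := by
        refine integral_mono_on hRb hF3 intervalIntegrable_const fun y hy => ?_
        rw [← mul_pow]
        refine pow_le_pow_left₀ (norm_nonneg _) ((norm_inner_le_norm _ _).trans ?_) 2
        refine mul_le_mul_of_nonneg_left ?_ (norm_nonneg _)
        simp only [hUt]
        rw [if_neg (by linarith [hy.1])]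
        by_cases h2 : y ≤ R
        · have : y = R := le_antisymm h2 hy.1
          rw [if_pos h2, this]
        · rw [if_neg h2, norm_smul, Real.norm_of_nonneg (by linarith [hy.2])]
          refine mul_le_of_le_one_left (norm_nonneg _) ?_
          linarith [hy.1]
      refine h1.trans (le_of_eq ?_)
      rw [intervalIntegral.integral_const, hb, smul_eq_mul]
      ring
    have e2 : ∫ y in (-R)..R, ‖inner ℂ f (Ut y)‖ ^ 2 ≤ ‖f‖ ^ 2 := by
      have h1 : ∫ y in (-R)..R, ‖inner ℂ f (Ut y)‖ ^ 2 =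
          ∫ y in (-R)..R, ‖inner ℂ f (U y)‖ ^ 2 := by
        refine integral_congr_ae (Eventually.of_forall fun t ht => ?_)
        rw [uIoc_of_le hRR] at ht
        simp only [hUt]
        rw [if_neg (not_le.2 ht.1), if_pos ht.2]
      rw [h1]
      have h2 : MemLp (fun y => inner ℂ f (U y)) 2 volume :=
        ContinuousLinearMap.comp_memLp' (innerSL ℂ f) hU2
      exact (hmid _ (h2.integrable_norm_pow two_ne_zero) (fun x => by positivity)).trans (hM f)
    rw [hδ]
    nlinarith
  have hC0 : 0 < C0 := by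
    unfold C0
    positivity
  have hmain := kin_L2 hab Ut Vt hVtm hUeq hVb (1 + δ) (by positivity) hMle
  have h6 : ∫ x in (-R)..R, ‖U x‖ ^ 6 ≤ ∫ x in a..b, ‖Ut x‖ ^ 6 := by
    have h1 : ∫ x in (-R)..R, ‖U x‖ ^ 6 = ∫ x in (-R)..R, ‖Ut x‖ ^ 6 := by
      refine integral_congr_ae (Eventually.of_forall fun t ht => ?_)
      rw [uIoc_of_le hRR] at ht
      simp only [hUt]
      rw [if_neg (not_le.2 ht.1), if_pos ht.2]
    rw [h1]
    refine integral_mono_interval haR hRR hRb (Eventually.of_forall fun t => by positivity) ?_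
    apply ContinuousOn.intervalIntegrable
    rw [uIcc_of_le hab.le]
    exact hUtc.norm.pow 6
  calc (Real.pi / (C0 * (1 + δ))) ^ 2 * ∫ x in (-R)..R, ‖U x‖ ^ 6
      ≤ (Real.pi / (C0 * (1 + δ))) ^ 2 * ∫ x in a..b, ‖Ut x‖ ^ 6 :=
        mul_le_mul_of_nonneg_left h6 (by positivity)
    _ ≤ 4 * ∫ x in a..b, ‖Vt x‖ ^ 2 := hmain
    _ ≤ _ := mul_le_mul_of_nonneg_left hVle (by norm_num)

theorem kin_line {E : Type*} [NormedAddCommGroup E] [InnerProductSpace ℂ E] [CompleteSpace E]
    (U V : ℝ → E) (hU2 : MemLp U 2 volume) (hV2 : MemLp V 2 volume)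
    (hftc : ∀ x y : ℝ, U y - U x = ∫ s in x..y, V s)
    (hM : ∀ f : E, ∫ y, ‖inner ℂ f (U y)‖ ^ 2 ≤ ‖f‖ ^ 2) :
    Integrable (fun x => ‖U x‖ ^ 6) ∧
    (Real.pi / C0) ^ 2 * ∫ x, ‖U x‖ ^ 6 ≤ 4 * ∫ x, ‖V x‖ ^ 2 := by
  have hVi : ∀ x y : ℝ, IntervalIntegrable V volume x y := fun x y => by
    have h1 : LocallyIntegrable V volume := hV2.locallyIntegrable one_le_two
    exact (h1.integrableOn_isCompact isCompact_uIcc).intervalIntegrable
  have hUc : Continuous U := by
    have h1 : U = fun x => U 0 + ∫ s in (0 : ℝ)..x, V s := by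
      funext x
      rw [← hftc 0 x]
      abel
    rw [h1]
    exact continuous_const.add (intervalIntegral.continuous_primitive hVi 0)
  have hC0 : 0 < C0 := by
    unfold C0
    positivity
  set e : ℕ → ℝ := fun n => 1 / ((n : ℝ) + 1) with he
  have he0 : ∀ n, 0 < e n := fun n => by positivity
  have helim : Tendsto e atTop (𝓝 0) := tendsto_one_div_add_atTop_nhds_zero_nat
  -- good radii
  have hex : ∀ n : ℕ, ∃ R : ℝ, (n : ℝ) + 1 ≤ R ∧ ‖U R‖ ^ 2 + ‖U (-R)‖ ^ 2 ≤ e n := by
    intro n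
    by_contra hcon
    push Not at hcon
    have hG : Integrable (fun x => ‖U x‖ ^ 2 + ‖U (-x)‖ ^ 2) volume := by
      have h1 : Integrable (fun x => ‖U x‖ ^ 2) volume := hU2.integrable_norm_pow two_ne_zero
      exact h1.add h1.comp_neg
    have h1 := hG.measure_norm_ge_lt_top (he0 n)
    have h2 : Ici ((n : ℝ) + 1) ⊆ {x | e n ≤ ‖‖U x‖ ^ 2 + ‖U (-x)‖ ^ 2‖} := by
      intro x hx
      have := hcon x hx
      rw [mem_ofPred_eq, Real.norm_of_nonneg (by positivity)]
      exact this.le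
    have h3 := lt_of_le_of_lt (measure_mono h2) h1
    rw [Real.volume_Ici] at h3
    exact lt_irrefl _ h3
  choose R hR1 hR2 using hex
  have hR0 : ∀ n, 0 < R n := fun n => by
    have := hR1 n
    have h0 : (0 : ℝ) ≤ n := Nat.cast_nonneg n
    linarith
  have hRtop : Tendsto R atTop atTop :=
    tendsto_atTop_mono (fun n => by linarith [hR1 n]) tendsto_natCast_atTop_atTop
  have hRbot : Tendsto (fun n => -R n) atTop atBot := tendsto_neg_atTop_atBot.comp hRtop
  set A : ℝ := ∫ x, ‖V x‖ ^ 2 with hA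
  have hA0 : 0 ≤ A := integral_nonneg fun x => by positivity
  have hcut : ∀ n, (Real.pi / (C0 * (1 + e n))) ^ 2 * ∫ x in (-R n)..(R n), ‖U x‖ ^ 6 ≤
      4 * (A + e n) := by
    intro n
    have h1 := kin_cut U V hU2 hV2 hftc hM (hR0 n)
    have h0 : 0 ≤ ∫ x in (-R n)..(R n), ‖U x‖ ^ 6 :=
      integral_nonneg_of_forall (by linarith [hR0 n]) fun x => by positivity
    have h2 : (Real.pi / (C0 * (1 + e n))) ^ 2 ≤
        (Real.pi / (C0 * (1 + (‖U (R n)‖ ^ 2 + ‖U (-R n)‖ ^ 2)))) ^ 2 := by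
      have h3 := he0 n
      gcongr
      exact hR2 n
    refine (mul_le_mul_of_nonneg_right h2 h0).trans (h1.trans ?_)
    have := hR2 n
    linarith
  have hfi : ∀ n, IntegrableOn (fun x => ‖U x‖ ^ 6) (Ioc (-R n) (R n)) volume := fun n =>
    ((hUc.norm.pow 6).integrableOn_Ioc)
  have hint : Integrable (fun x => ‖U x‖ ^ 6) volume := by
    refine integrable_of_intervalIntegral_norm_bounded
      (4 * (A + 1) / (Real.pi / (C0 * 2)) ^ 2) hfi hRbot hRtop (Eventually.of_forall fun n => ?_)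
    have h1 := hcut n
    have he1 : e n ≤ 1 := by
      simp only [he]
      rw [div_le_one (by positivity)]
      linarith [(Nat.cast_nonneg n : (0 : ℝ) ≤ n)]
    have h0 : 0 ≤ ∫ x in (-R n)..(R n), ‖U x‖ ^ 6 :=
      integral_nonneg_of_forall (by linarith [hR0 n]) fun x => by positivity
    have h2 : (Real.pi / (C0 * 2)) ^ 2 ≤ (Real.pi / (C0 * (1 + e n))) ^ 2 := by
      have h3 := he0 n
      gcongr
      linarith
    have h4 : ∫ x in (-R n)..(R n), ‖‖U x‖ ^ 6‖ = ∫ x in (-R n)..(R n), ‖U x‖ ^ 6 := by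
      refine integral_congr fun x _ => ?_
      exact Real.norm_of_nonneg (by positivity)
    rw [h4, le_div_iff₀ (by positivity), mul_comm]
    refine (mul_le_mul_of_nonneg_right h2 h0).trans (h1.trans ?_)
    linarith
  refine ⟨hint, ?_⟩
  have hlim1 : Tendsto (fun n => ∫ x in (-R n)..(R n), ‖U x‖ ^ 6) atTop
      (𝓝 (∫ x, ‖U x‖ ^ 6)) := intervalIntegral_tendsto_integral hint hRbot hRtop
  have hlimL : Tendsto (fun n => (Real.pi / (C0 * (1 + e n))) ^ 2 *
      ∫ x in (-R n)..(R n), ‖U x‖ ^ 6) atTop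
      (𝓝 ((Real.pi / (C0 * (1 + 0))) ^ 2 * ∫ x, ‖U x‖ ^ 6)) := by
    refine Tendsto.mul (Tendsto.pow ?_ 2) hlim1
    refine tendsto_const_nhds.div ((tendsto_const_nhds.add helim).const_mul _) ?_
    rw [add_zero, mul_one]
    exact hC0.ne'
  have hlimR : Tendsto (fun n => 4 * (A + e n)) atTop (𝓝 (4 * (A + 0))) :=
    (tendsto_const_nhds.add helim).const_mul _
  have := le_of_tendsto_of_tendsto' hlimL hlimR hcut
  simpa using this

section line

variable {N : ℕ}

/-- the vector valued function -/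
noncomputable def kinU (u : Fin N → ℝ → ℂ) (x : ℝ) : EuclideanSpace ℂ (Fin N) :=
  WithLp.toLp 2 (fun j => u j x)

theorem kinU_norm_sq (u : Fin N → ℝ → ℂ) (x : ℝ) : ‖kinU u x‖ ^ 2 = ∑ j, ‖u j x‖ ^ 2 := by
  rw [EuclideanSpace.norm_sq_eq]
  rfl

theorem kinU_memLp (u : Fin N → ℝ → ℂ) (h : ∀ j, MemLp (u j) 2 volume) :
    MemLp (kinU u) 2 volume := by
  have h1 : kinU u = fun x => ∑ j, (ContinuousLinearMap.toSpanSingleton ℂ
      (EuclideanSpace.single j (1 : ℂ) : EuclideanSpace ℂ (Fin N))) (u j x) := by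
    funext x
    ext i
    simp only [ContinuousLinearMap.toSpanSingleton_apply, kinU]
    rw [WithLp.ofLp_sum, Finset.sum_apply]
    simp [Finset.sum_ite_eq]
  rw [h1]
  exact memLp_finsetSum _ fun j _ => ContinuousLinearMap.comp_memLp' _ (h j)

/-- the kinetic inequality for `H¹` families -/
theorem kinetic {N : ℕ} (u v : Fin N → ℝ → ℂ) (h : ∀ j, IsH1 (u j) (v j))
    (ho : ∀ c : Fin N → ℂ, ∫ x, ‖∑ j, c j * u j x‖ ^ 2 ≤ ∑ j, ‖c j‖ ^ 2) :
    Integrable (fun x => (∑ j, ‖u j x‖ ^ 2) ^ 3) ∧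
    (Real.pi / C0) ^ 2 * ∫ x, (∑ j, ‖u j x‖ ^ 2) ^ 3 ≤ 4 * ∑ j, ∫ x, ‖v j x‖ ^ 2 := by
  have hU2 := kinU_memLp u fun j => (h j).memLp_u
  have hV2 := kinU_memLp v fun j => (h j).memLp_v
  have hvi : ∀ j, ∀ x y : ℝ, IntervalIntegrable (v j) volume x y := fun j x y => by
    have h1 : LocallyIntegrable (v j) volume := (h j).memLp_v.locallyIntegrable one_le_two
    exact (h1.integrableOn_isCompact isCompact_uIcc).intervalIntegrable
  have hVi : ∀ x y : ℝ, IntervalIntegrable (kinU v) volume x y := fun x y => by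
    have h1 : LocallyIntegrable (kinU v) volume := hV2.locallyIntegrable one_le_two
    exact (h1.integrableOn_isCompact isCompact_uIcc).intervalIntegrable
  have hftc : ∀ x y : ℝ, kinU u y - kinU u x = ∫ s in x..y, kinU v s := by
    intro x y
    ext j
    have h1 := (EuclideanSpace.proj (𝕜 := ℂ) (ι := Fin N) j).intervalIntegral_comp_comm (hVi x y)
    have h2 : (∫ s in x..y, kinU v s) j = ∫ s in x..y, v j s := h1.symm
    rw [h2, ← (h j).ftc x y]
    rfl
  have hM : ∀ f : EuclideanSpace ℂ (Fin N), ∫ y, ‖inner ℂ f (kinU u y)‖ ^ 2 ≤ ‖f‖ ^ 2 := by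
    intro f
    have h1 := ho (fun j => (starRingEnd ℂ) (f j))
    have h2 : ∑ j, ‖(starRingEnd ℂ) (f j)‖ ^ 2 = ‖f‖ ^ 2 := by
      rw [EuclideanSpace.norm_sq_eq]
      refine Finset.sum_congr rfl fun j _ => ?_
      rw [RCLike.norm_conj]
    have h3 : ∀ y, inner ℂ f (kinU u y) = ∑ j, (starRingEnd ℂ) (f j) * u j y := by
      intro y
      rw [PiLp.inner_apply]
      refine Finset.sum_congr rfl fun j _ => ?_
      rw [RCLike.inner_apply, mul_comm]
      rfl
    simp only [h3]
    rw [← h2]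
    exact h1
  obtain ⟨h1, h2⟩ := kin_line (kinU u) (kinU v) hU2 hV2 hftc hM
  have e6 : (fun x => ‖kinU u x‖ ^ 6) = fun x => (∑ j, ‖u j x‖ ^ 2) ^ 3 := by
    funext x
    rw [← kinU_norm_sq]
    ring
  have e2 : ∫ x, ‖kinU v x‖ ^ 2 = ∑ j, ∫ x, ‖v j x‖ ^ 2 := by
    simp only [kinU_norm_sq]
    exact integral_finsetSum _ fun j _ => (h j).memLp_v.integrable_norm_pow two_ne_zero
  rw [e6] at h1 h2
  rw [e2] at h2
  exact ⟨h1, h2⟩

end line

end P371
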