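import Mathlib

/-! P371 MODULE LIFT (Aizenman-Lieb lifting from γ = 1 to γ > 1), pure real analysis.
For l, s > 0, γ > 1: l^γ = γ (γ-1) ∫_0^∞ s^(γ-2) (l - s)_+ ds. Multiply the hypothesis at s by s^(γ-2) and integrate
(lintegral, Tonelli). With Lcl γ = (1/2π) ∫ (1-ξ²)_+^γ dξ, for w ≥ 0
w^(γ+1/2) Lcl γ = (1/2π) ∫ (w-ξ²)_+^γ dξ = γ(γ-1) ∫ s^(γ-2) (1/2π) ∫ (w-s-ξ²)_+ dξ ds
               = γ(γ-1) Lcl 1 ∫ s^(γ-2) (w-s)_+^(3/2) ds. -/

open MeasureTheory Set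

namespace P371

/-- the semiclassical constant L^cl_γ in dimension one -/
noncomputable def Lcl (γ : ℝ) : ℝ := 1 / (2 * Real.pi) * ∫ ξ : ℝ, (max (1 - ξ ^ 2) 0) ^ γ

theorem Lift_cont {γ : ℝ} (hγ : 0 < γ) (w : ℝ) : Continuous fun ξ : ℝ => (max (w - ξ ^ 2) 0) ^ γ := by
  refine Continuous.rpow_const (by fun_prop) ?_
  intro x
  exact Or.inr hγ.le

theorem Lift_supp {γ : ℝ} (hγ : 0 < γ) :
    HasCompactSupport fun ξ : ℝ => (max (1 - ξ ^ 2) 0) ^ γ := by
  refine HasCompactSupport.of_support_subset_isCompact (isCompact_Icc (a := (-1 : ℝ)) (b := 1)) ?_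
  intro ξ hξ
  rw [Function.mem_support] at hξ
  by_contra h
  apply hξ
  have h1 : 1 ≤ ξ ^ 2 := by
    rw [mem_Icc, not_and_or, not_le, not_le] at h
    rcases h with h | h <;> nlinarith
  rw [max_eq_right (by linarith), Real.zero_rpow hγ.ne']

theorem Lift_int {γ : ℝ} (hγ : 0 < γ) :
    Integrable fun ξ : ℝ => (max (1 - ξ ^ 2) 0) ^ γ :=
  (Lift_cont hγ 1).integrable_of_hasCompactSupport (Lift_supp hγ)

theorem Lcl_one : Lcl 1 = 2 / (3 * Real.pi) := by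
  unfold Lcl
  have h1 : ∫ ξ : ℝ, (max (1 - ξ ^ 2) 0) ^ (1 : ℝ) = 4 / 3 := by
    have h2 : ∀ ξ : ℝ, (max (1 - ξ ^ 2) 0) ^ (1 : ℝ) =
        (Ioc (-1 : ℝ) 1).indicator (fun ξ => 1 - ξ ^ 2) ξ := by
      intro ξ
      rw [Real.rpow_one]
      by_cases h : ξ ∈ Ioc (-1 : ℝ) 1
      · rw [indicator_of_mem h, max_eq_left]
        rw [mem_Ioc] at h
        nlinarith
      · rw [indicator_of_notMem h, max_eq_right]
        rw [mem_Ioc, not_and_or, not_lt, not_le] at h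
        rcases h with h | h <;> nlinarith
    simp_rw [h2]
    rw [integral_indicator measurableSet_Ioc, ← intervalIntegral.integral_of_le (by norm_num)]
    rw [intervalIntegral.integral_sub (by simp) (by
      apply Continuous.intervalIntegrable; fun_prop)]
    rw [integral_pow]
    simp
    norm_num
  rw [h1]
  have := Real.pi_pos
  field_simp
  norm_num

theorem Lcl_pos {γ : ℝ} (hγ : 0 < γ) : 0 < Lcl γ := by
  unfold Lcl
  have h1 : 0 < ∫ ξ : ℝ, (max (1 - ξ ^ 2) 0) ^ γ := by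
    refine Continuous.integral_pos_of_hasCompactSupport_nonneg_nonzero (x := 0) (Lift_cont hγ 1)
      (Lift_supp hγ) ?_ ?_
    · intro x
      exact Real.rpow_nonneg (le_max_right _ _) _
    · simp
  have := Real.pi_pos
  positivity

/-- first identity -/
theorem Lift_A {γ : ℝ} (hγ : 1 < γ) {l : ℝ} (hl : 0 ≤ l) :
    ∫⁻ s in Ioi (0 : ℝ), ENNReal.ofReal (s ^ (γ - 2)) * ENNReal.ofReal (max (l - s) 0) =
      ENNReal.ofReal (l ^ γ / (γ * (γ - 1))) := by
  have h1 : ∀ s ∈ Ioi (0 : ℝ), ENNReal.ofReal (s ^ (γ - 2)) * ENNReal.ofReal (max (l - s) 0) =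
      (Iic l).indicator (fun s => ENNReal.ofReal (l * s ^ (γ - 2) - s ^ (γ - 1))) s := by
    intro s hs
    rw [mem_Ioi] at hs
    by_cases h : s ∈ Iic l
    · rw [indicator_of_mem h, max_eq_left (by rw [mem_Iic] at h; linarith),
        ← ENNReal.ofReal_mul (Real.rpow_nonneg hs.le _)]
      congr 1
      have e : s ^ (γ - 1) = s ^ (γ - 2) * s := by
        rw [← Real.rpow_add_one hs.ne']; congr 1; ring
      rw [e]; ring
    · rw [indicator_of_notMem h, max_eq_right (by rw [mem_Iic] at h; linarith)]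
      simp
  rw [setLIntegral_congr_fun measurableSet_Ioi h1, setLIntegral_indicator measurableSet_Iic]
  have h2 : Iic l ∩ Ioi (0 : ℝ) = Ioc 0 l := by
    ext s; simp [and_comm]
  rw [h2]
  have i1 : IntervalIntegrable (fun s : ℝ => s ^ (γ - 2)) volume 0 l :=
    intervalIntegral.intervalIntegrable_rpow' (by linarith)
  have i2 : IntervalIntegrable (fun s : ℝ => s ^ (γ - 1)) volume 0 l :=
    intervalIntegral.intervalIntegrable_rpow' (by linarith)
  have i3 : IntervalIntegrable (fun s : ℝ => l * s ^ (γ - 2) - s ^ (γ - 1)) volume 0 l :=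
    (i1.const_mul l).sub i2
  rw [← ofReal_integral_eq_lintegral_ofReal]
  · rw [← intervalIntegral.integral_of_le hl, intervalIntegral.integral_sub (i1.const_mul l) i2,
      intervalIntegral.integral_const_mul, integral_rpow (Or.inl (by linarith)),
      integral_rpow (Or.inl (by linarith))]
    congr 1
    have e1 : γ - 2 + 1 = γ - 1 := by ring
    have e2 : γ - 1 + 1 = γ := by ring
    rw [e1, e2, Real.zero_rpow (by linarith), Real.zero_rpow (by linarith)]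
    rcases hl.eq_or_lt with rfl | hl'
    · rw [Real.zero_rpow (by linarith), Real.zero_rpow (by linarith)]; simp
    · have e : l ^ γ = l ^ (γ - 1) * l := by
        rw [← Real.rpow_add_one hl'.ne']; congr 1; ring
      rw [e]
      have : γ - 1 ≠ 0 := by linarith
      have : γ ≠ 0 := by linarith
      field_simp
      ring
  · exact (intervalIntegrable_iff_integrableOn_Ioc_of_le hl).mp i3
  · refine (ae_restrict_iff' measurableSet_Ioc).mpr (Filter.Eventually.of_forall ?_)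
    intro s hs
    rw [mem_Ioc] at hs
    have e : s ^ (γ - 1) = s ^ (γ - 2) * s := by
      rw [← Real.rpow_add_one hs.1.ne']; congr 1; ring
    have h3 : 0 ≤ s ^ (γ - 2) := Real.rpow_nonneg hs.1.le _
    show 0 ≤ l * s ^ (γ - 2) - s ^ (γ - 1)
    rw [e]
    nlinarith [hs.2]

/-- scaling -/
theorem Lift_scale {γ : ℝ} (hγ : 0 < γ) {w : ℝ} (hw : 0 ≤ w) :
    ∫⁻ ξ : ℝ, ENNReal.ofReal ((max (w - ξ ^ 2) 0) ^ γ) =
      ENNReal.ofReal (w ^ (γ + 1 / 2)) * ENNReal.ofReal (2 * Real.pi * Lcl γ) := by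
  have hpi := Real.pi_pos
  have hL : 2 * Real.pi * Lcl γ = ∫ ξ : ℝ, (max (1 - ξ ^ 2) 0) ^ γ := by
    unfold Lcl; field_simp
  rcases hw.eq_or_lt with rfl | hw'
  · rw [Real.zero_rpow (by linarith)]
    have : ∀ ξ : ℝ, ENNReal.ofReal ((max (0 - ξ ^ 2) 0) ^ γ) = 0 := by
      intro ξ
      rw [max_eq_right (by nlinarith [sq_nonneg ξ]), Real.zero_rpow hγ.ne']
      simp
    simp_rw [this]
    simp
  · have h1 : ∀ ξ : ℝ, (max (w - ξ ^ 2) 0) ^ γ =
        w ^ γ * (fun η : ℝ => (max (1 - η ^ 2) 0) ^ γ) ((Real.sqrt w)⁻¹ * ξ) := by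
      intro ξ
      show (max (w - ξ ^ 2) 0) ^ γ = w ^ γ * (max (1 - ((Real.sqrt w)⁻¹ * ξ) ^ 2) 0) ^ γ
      rw [← Real.mul_rpow hw (le_max_right _ _), mul_max_of_nonneg _ _ hw]
      congr 2
      · rw [mul_pow, inv_pow, Real.sq_sqrt hw]
        field_simp
      · simp
    have hs : 0 < Real.sqrt w := Real.sqrt_pos.mpr hw'
    have i1 : Integrable fun ξ : ℝ => (max (w - ξ ^ 2) 0) ^ γ := by
      simp_rw [h1]
      exact ((Lift_int hγ).comp_mul_left' (inv_ne_zero hs.ne')).const_mul _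
    rw [← ofReal_integral_eq_lintegral_ofReal i1
      (Filter.Eventually.of_forall fun ξ => Real.rpow_nonneg (le_max_right _ _) _)]
    rw [← ENNReal.ofReal_mul (Real.rpow_nonneg hw _), hL]
    congr 1
    simp_rw [h1]
    rw [integral_const_mul]
    have e := Measure.integral_comp_mul_left (fun η : ℝ => (max (1 - η ^ 2) 0) ^ γ) (Real.sqrt w)⁻¹
    rw [inv_inv, abs_of_pos hs, smul_eq_mul] at e
    rw [e, ← mul_assoc]
    congr 1
    rw [Real.rpow_add hw', Real.sqrt_eq_rpow]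

theorem Lift_meas (γ : ℝ) : Measurable fun s : ℝ => ENNReal.ofReal (s ^ (γ - 2)) := by
  fun_prop

theorem Lift_B {γ : ℝ} (hγ : 1 < γ) {w : ℝ} (hw : 0 ≤ w) :
    ENNReal.ofReal (γ * (γ - 1)) * ∫⁻ s in Ioi (0 : ℝ), ENNReal.ofReal (s ^ (γ - 2)) *
      ENNReal.ofReal (max (w - s) 0 ^ (3 / 2 : ℝ)) =
      ENNReal.ofReal (Lcl γ / Lcl 1) * ENNReal.ofReal (w ^ (γ + 1 / 2)) := by
  have hpi := Real.pi_pos
  have hL1 : 0 < Lcl 1 := Lcl_pos one_pos
  have hLγ : 0 < Lcl γ := Lcl_pos (by linarith)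
  have hg : 0 < γ * (γ - 1) := by nlinarith
  have h1 : ∀ s : ℝ, ENNReal.ofReal (max (w - s) 0 ^ (3 / 2 : ℝ)) * ENNReal.ofReal (2 * Real.pi * Lcl 1)
      = ∫⁻ ξ : ℝ, ENNReal.ofReal (max (w - ξ ^ 2 - s) 0) := by
    intro s
    have e := Lift_scale (γ := 1) one_pos (w := max (w - s) 0) (le_max_right _ _)
    have e2 : (1 : ℝ) + 1 / 2 = 3 / 2 := by norm_num
    rw [e2] at e
    rw [← e]
    refine lintegral_congr fun ξ => ?_
    rw [Real.rpow_one]
    congr 1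
    rcases le_total (w - s) 0 with h | h
    · rw [max_eq_right h, max_eq_right (by nlinarith [sq_nonneg ξ]),
        max_eq_right (by nlinarith [sq_nonneg ξ])]
    · rw [max_eq_left h]
      congr 1
      ring
  have h2 : (∫⁻ s in Ioi (0 : ℝ), ENNReal.ofReal (s ^ (γ - 2)) *
      ENNReal.ofReal (max (w - s) 0 ^ (3 / 2 : ℝ))) * ENNReal.ofReal (2 * Real.pi * Lcl 1) =
      ∫⁻ ξ : ℝ, ∫⁻ s in Ioi (0 : ℝ), ENNReal.ofReal (s ^ (γ - 2)) *
        ENNReal.ofReal (max (w - ξ ^ 2 - s) 0) := by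
    rw [lintegral_lintegral_swap]
    · rw [← lintegral_mul_const _ (by fun_prop)]
      refine lintegral_congr fun s => ?_
      rw [mul_assoc, h1 s, lintegral_const_mul _ (by fun_prop)]
    · apply Measurable.aemeasurable
      fun_prop
  have h3 : ∀ ξ : ℝ, ∫⁻ s in Ioi (0 : ℝ), ENNReal.ofReal (s ^ (γ - 2)) *
        ENNReal.ofReal (max (w - ξ ^ 2 - s) 0) =
      ENNReal.ofReal (1 / (γ * (γ - 1))) * ENNReal.ofReal ((max (w - ξ ^ 2) 0) ^ γ) := by
    intro ξ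
    rw [← ENNReal.ofReal_mul (by positivity), one_div, inv_mul_eq_div,
      ← Lift_A hγ (le_max_right (w - ξ ^ 2) 0)]
    refine setLIntegral_congr_fun measurableSet_Ioi fun s hs => ?_
    rw [mem_Ioi] at hs
    show _ = _
    congr 2
    rcases le_total (w - ξ ^ 2) 0 with h | h
    · rw [max_eq_right h, max_eq_right (by linarith), max_eq_right (by linarith)]
    · rw [max_eq_left h]
  have h4 : (∫⁻ s in Ioi (0 : ℝ), ENNReal.ofReal (s ^ (γ - 2)) *
      ENNReal.ofReal (max (w - s) 0 ^ (3 / 2 : ℝ))) * ENNReal.ofReal (2 * Real.pi * Lcl 1) =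
      ENNReal.ofReal (1 / (γ * (γ - 1))) * (ENNReal.ofReal (w ^ (γ + 1 / 2)) *
        ENNReal.ofReal (2 * Real.pi * Lcl γ)) := by
    rw [h2, ← Lift_scale (by linarith) hw, ← lintegral_const_mul _ (by fun_prop)]
    exact lintegral_congr h3
  have h5 : ENNReal.ofReal (2 * Real.pi * Lcl 1) ≠ 0 := by
    rw [Ne, ENNReal.ofReal_eq_zero, not_le]; positivity
  have h6 : ENNReal.ofReal (2 * Real.pi * Lcl 1) ≠ ⊤ := ENNReal.ofReal_ne_top
  rw [← ENNReal.mul_left_inj h5 h6, mul_assoc, h4, ← mul_assoc, ← ENNReal.ofReal_mul hg.le,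
    mul_one_div_cancel hg.ne', ENNReal.ofReal_one, one_mul]
  have h7 : ENNReal.ofReal (2 * Real.pi * Lcl γ) =
      ENNReal.ofReal (Lcl γ / Lcl 1) * ENNReal.ofReal (2 * Real.pi * Lcl 1) := by
    rw [← ENNReal.ofReal_mul (by positivity)]
    congr 1
    field_simp
  rw [h7]
  ring

theorem lift {γ : ℝ} (hγ : 1 < γ) {N : ℕ} (l : Fin N → ℝ) (hl : ∀ j, 0 < l j) (W : ℝ → ℝ)
    (hWm : Measurable W) (hW0 : ∀ x, 0 ≤ W x) (K : ℝ) (hK : 0 ≤ K)
    (h : ∀ s : ℝ, 0 < s → ENNReal.ofReal (∑ j, max (l j - s) 0) ≤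
      ENNReal.ofReal K * ∫⁻ x, ENNReal.ofReal (max (W x - s) 0 ^ (3 / 2 : ℝ))) :
    ENNReal.ofReal (∑ j, l j ^ γ) ≤
      ENNReal.ofReal (K * Lcl γ / Lcl 1) * ∫⁻ x, ENNReal.ofReal (W x ^ (γ + 1 / 2)) := by
  have hg : 0 < γ * (γ - 1) := by nlinarith
  have h1 : ENNReal.ofReal (∑ j, l j ^ γ) = ENNReal.ofReal (γ * (γ - 1)) *
      ∫⁻ s in Ioi (0 : ℝ), ENNReal.ofReal (s ^ (γ - 2)) * ENNReal.ofReal (∑ j, max (l j - s) 0) := by
    have e1 : ∀ s ∈ Ioi (0 : ℝ), ENNReal.ofReal (s ^ (γ - 2)) *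
        ENNReal.ofReal (∑ j, max (l j - s) 0) =
        ∑ j, ENNReal.ofReal (s ^ (γ - 2)) * ENNReal.ofReal (max (l j - s) 0) := by
      intro s _
      rw [ENNReal.ofReal_sum_of_nonneg (fun j _ => le_max_right _ _), Finset.mul_sum]
    rw [setLIntegral_congr_fun measurableSet_Ioi e1,
      lintegral_finsetSum _ (fun j _ => by fun_prop), Finset.mul_sum,
      ENNReal.ofReal_sum_of_nonneg (fun j _ => Real.rpow_nonneg (hl j).le _)]
    refine Finset.sum_congr rfl fun j _ => ?_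
    rw [Lift_A hγ (hl j).le, ← ENNReal.ofReal_mul hg.le]
    congr 1
    rw [mul_div_cancel₀ _ hg.ne']
  rw [h1]
  have h2 : ∫⁻ s in Ioi (0 : ℝ), ENNReal.ofReal (s ^ (γ - 2)) * ENNReal.ofReal (∑ j, max (l j - s) 0) ≤
      ∫⁻ s in Ioi (0 : ℝ), ENNReal.ofReal (s ^ (γ - 2)) * (ENNReal.ofReal K *
        ∫⁻ x, ENNReal.ofReal (max (W x - s) 0 ^ (3 / 2 : ℝ))) := by
    refine setLIntegral_mono' measurableSet_Ioi fun s hs => ?_
    exact mul_le_mul_right (h s hs) _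
  have h3 : ∫⁻ s in Ioi (0 : ℝ), ENNReal.ofReal (s ^ (γ - 2)) * (ENNReal.ofReal K *
        ∫⁻ x, ENNReal.ofReal (max (W x - s) 0 ^ (3 / 2 : ℝ))) =
      ENNReal.ofReal K * ∫⁻ x, ∫⁻ s in Ioi (0 : ℝ), ENNReal.ofReal (s ^ (γ - 2)) *
        ENNReal.ofReal (max (W x - s) 0 ^ (3 / 2 : ℝ)) := by
    rw [lintegral_lintegral_swap]
    · rw [← lintegral_const_mul _ (by fun_prop)]
      refine lintegral_congr fun s => ?_
      rw [lintegral_const_mul _ (by fun_prop)]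
      ring
    · apply Measurable.aemeasurable
      fun_prop
  refine (mul_le_mul_right (h2.trans_eq h3) _).trans_eq ?_
  rw [← mul_assoc, mul_comm (ENNReal.ofReal (γ * (γ - 1))), mul_assoc,
    ← lintegral_const_mul _ (by fun_prop)]
  have h4 : ∀ x : ℝ, ENNReal.ofReal (γ * (γ - 1)) * ∫⁻ s in Ioi (0 : ℝ),
      ENNReal.ofReal (s ^ (γ - 2)) * ENNReal.ofReal (max (W x - s) 0 ^ (3 / 2 : ℝ)) =
      ENNReal.ofReal (Lcl γ / Lcl 1) * ENNReal.ofReal (W x ^ (γ + 1 / 2)) := fun x =>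
    Lift_B hγ (hW0 x)
  simp_rw [h4]
  rw [lintegral_const_mul _ (by fun_prop), ← mul_assoc, ← ENNReal.ofReal_mul hK, mul_div_assoc]

end P371
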