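import Mathlib

/-! P371 MODULE POINC (weighted Poincare inequality on an interval).
Proof: let T = ∫ σ over [a,b], c < π / T, m x = ∫ in a..x, σ - T/2 in [-T/2, T/2],
q x = c * tan (c * m x) (defined since |c * m x| < π/2), q' = c^2 (1 + tan^2) σ.
0 ≤ ∫ (H' + q σ H)^2 / σ = ∫ H'^2/σ + 2 ∫ q H H' + ∫ q^2 σ H^2 and
0 = [q H^2] = ∫ q' H^2 + 2 ∫ q H H', so ∫ H'^2/σ ≥ c^2 ∫ H^2 σ. Let c → π / T. -/

open MeasureTheory Set intervalIntegral

namespace P371

theorem poinc_aux {a b : ℝ} (hab : a < b) (σ H H' : ℝ → ℝ) (hσ : Continuous σ)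
    (hpos : ∀ x, 0 < σ x) (hH : ∀ x, HasDerivAt H (H' x) x) (hH' : Continuous H') (ha : H a = 0)
    (hb : H b = 0) (c : ℝ) (hc : 0 < c) (hcT : c * (∫ x in a..b, σ x) < Real.pi) :
    c ^ 2 * ∫ x in a..b, H x ^ 2 * σ x ≤ ∫ x in a..b, H' x ^ 2 / σ x := by
  set T := ∫ x in a..b, σ x with hT
  set m : ℝ → ℝ := fun x => (∫ y in a..x, σ y) - T / 2 with hm
  have hcH : Continuous H := continuous_iff_continuousAt.mpr fun x => (hH x).continuousAt
  have hint : ∀ u v, IntervalIntegrable σ volume u v := fun u v => hσ.intervalIntegrable u v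
  have hmd : ∀ x, HasDerivAt m (σ x) x := by
    intro x
    have h1 : HasDerivAt (fun x => ∫ y in a..x, σ y) (σ x) x :=
      integral_hasDerivAt_right (hint a x) (hσ.stronglyMeasurableAtFilter _ _) hσ.continuousAt
    exact h1.sub_const _
  have hmc : Continuous m := continuous_iff_continuousAt.mpr fun x => (hmd x).continuousAt
  have hcos : ∀ x ∈ Icc a b, 0 < Real.cos (c * m x) := by
    intro x hx
    have h1 : 0 ≤ ∫ y in a..x, σ y := integral_nonneg hx.1 fun y _ => (hpos y).le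
    have h2 : 0 ≤ ∫ y in x..b, σ y := integral_nonneg hx.2 fun y _ => (hpos y).le
    have h3 : (∫ y in a..x, σ y) + ∫ y in x..b, σ y = T :=
      integral_add_adjacent_intervals (hint a x) (hint x b)
    have h4 : m x = (∫ y in a..x, σ y) - T / 2 := rfl
    apply Real.cos_pos_of_mem_Ioo
    constructor
    · have : c * (-(T / 2)) ≤ c * m x := mul_le_mul_of_nonneg_left (by linarith) hc.le
      nlinarith
    · have : c * m x ≤ c * (T / 2) := mul_le_mul_of_nonneg_left (by linarith) hc.le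
      nlinarith
  set q : ℝ → ℝ := fun x => c * Real.tan (c * m x) with hq
  have hqd : ∀ x ∈ Icc a b, HasDerivAt q ((c ^ 2 + q x ^ 2) * σ x) x := by
    intro x hx
    have h0 := hcos x hx
    have h1 : HasDerivAt (fun x => c * m x) (c * σ x) x := (hmd x).const_mul c
    have h2 : HasDerivAt (fun x => Real.tan (c * m x)) (1 / Real.cos (c * m x) ^ 2 * (c * σ x)) x :=
      HasDerivAt.comp (h₂ := Real.tan) x (Real.hasDerivAt_tan h0.ne') h1
    have h3 := h2.const_mul c
    refine HasDerivAt.congr_deriv h3 ?_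
    have hqx : q x = c * Real.tan (c * m x) := rfl
    rw [hqx, Real.tan_eq_sin_div_cos]
    have h5 : Real.sin (c * m x) ^ 2 = 1 - Real.cos (c * m x) ^ 2 := by
      have := Real.sin_sq_add_cos_sq (c * m x); linarith
    field_simp
    rw [h5]; ring
  have hFd : ∀ x ∈ uIcc a b, HasDerivAt (fun x => q x * H x ^ 2)
      ((c ^ 2 + q x ^ 2) * σ x * H x ^ 2 + q x * (2 * H x * H' x)) x := by
    intro x hx
    rw [uIcc_of_le hab.le] at hx
    have h1 := (hqd x hx).mul ((hH x).pow 2)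
    refine HasDerivAt.congr_deriv h1 ?_
    simp
  have hqc : ContinuousOn q (uIcc a b) := by
    intro x hx
    rw [uIcc_of_le hab.le] at hx
    exact (hqd x hx).continuousAt.continuousWithinAt
  have hFc : ContinuousOn (fun x => (c ^ 2 + q x ^ 2) * σ x * H x ^ 2 + q x * (2 * H x * H' x))
      (uIcc a b) := by
    refine ContinuousOn.add ?_ ?_
    · exact ((continuousOn_const.add (hqc.pow 2)).mul hσ.continuousOn).mul
        (hcH.continuousOn.pow 2)
    · exact hqc.mul (((continuous_const.mul hcH).mul hH').continuousOn)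
  have hFi : IntervalIntegrable
      (fun x => (c ^ 2 + q x ^ 2) * σ x * H x ^ 2 + q x * (2 * H x * H' x)) volume a b :=
    hFc.intervalIntegrable
  have hF0 : ∫ x in a..b, ((c ^ 2 + q x ^ 2) * σ x * H x ^ 2 + q x * (2 * H x * H' x)) = 0 := by
    rw [integral_eq_sub_of_hasDerivAt hFd hFi, ha, hb]; ring
  have hA : IntervalIntegrable (fun x => H x ^ 2 * σ x) volume a b :=
    ((hcH.pow 2).mul hσ).intervalIntegrable a b
  have hB : IntervalIntegrable (fun x => H' x ^ 2 / σ x) volume a b :=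
    ((hH'.pow 2).div hσ fun x => (hpos x).ne').intervalIntegrable a b
  have hkey : 0 ≤ ∫ x in a..b, (H' x ^ 2 / σ x - c ^ 2 * (H x ^ 2 * σ x) +
      ((c ^ 2 + q x ^ 2) * σ x * H x ^ 2 + q x * (2 * H x * H' x))) := by
    refine integral_nonneg hab.le fun x _ => ?_
    have hs := hpos x
    have e : H' x ^ 2 / σ x - c ^ 2 * (H x ^ 2 * σ x) +
      ((c ^ 2 + q x ^ 2) * σ x * H x ^ 2 + q x * (2 * H x * H' x)) =
        (H' x + q x * σ x * H x) ^ 2 / σ x := by
      field_simp; ring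
    rw [e]
    positivity
  rw [integral_add (hB.sub (hA.const_mul _)) hFi, hF0, integral_sub hB (hA.const_mul _),
    intervalIntegral.integral_const_mul] at hkey
  linarith

theorem poinc {a b : ℝ} (hab : a < b) (σ H H' : ℝ → ℝ) (hσ : Continuous σ) (hpos : ∀ x, 0 < σ x)
    (hH : ∀ x, HasDerivAt H (H' x) x) (hH' : Continuous H') (ha : H a = 0) (hb : H b = 0) :
    (Real.pi / ∫ x in a..b, σ x) ^ 2 * ∫ x in a..b, H x ^ 2 * σ x ≤ ∫ x in a..b, H' x ^ 2 / σ x := by
  have hT : 0 < ∫ x in a..b, σ x :=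
    intervalIntegral_pos_of_pos (hσ.intervalIntegrable a b) hpos hab
  have hlim : Filter.Tendsto (fun c : ℝ => c ^ 2 * ∫ x in a..b, H x ^ 2 * σ x)
      (nhdsWithin (Real.pi / ∫ x in a..b, σ x) (Iio (Real.pi / ∫ x in a..b, σ x)))
      (nhds ((Real.pi / ∫ x in a..b, σ x) ^ 2 * ∫ x in a..b, H x ^ 2 * σ x)) := by
    have : Continuous (fun c : ℝ => c ^ 2 * ∫ x in a..b, H x ^ 2 * σ x) := by fun_prop
    exact this.continuousWithinAt
  refine le_of_tendsto hlim ?_
  have hpi : 0 < Real.pi / ∫ x in a..b, σ x := div_pos Real.pi_pos hT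
  have h1 : ∀ᶠ c in nhdsWithin (Real.pi / ∫ x in a..b, σ x) (Iio (Real.pi / ∫ x in a..b, σ x)),
      c ∈ Ioo 0 (Real.pi / ∫ x in a..b, σ x) := Ioo_mem_nhdsLT hpi
  filter_upwards [h1] with c hc
  exact poinc_aux hab σ H H' hσ hpos hH hH' ha hb c hc.1 ((lt_div_iff₀ hT).mp hc.2)

end P371
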