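import Vale.Agent.Lib.P371.Kin
import Vale.Agent.Lib.P371.Lift

/-! P371 MODULE POT (from the kinetic inequality to eigenvalues).
`pot`: with ρ = ∑ |u_j|², K = (π/C0)²/4: w ρ - K ρ³ ≤ 2/(3 √(3K)) w^(3/2) = 1.178 (2/(3π)) w^(3/2).
`eig`: a finite orthonormal family of eigenfunctions. -/

open MeasureTheory Set intervalIntegral

namespace P371

/-- finite families that are orthonormal in L²(ℝ; ℂ) -/
def IsON {N : ℕ} (u : Fin N → ℝ → ℂ) : Prop :=
  ∀ i j, ∫ x, u i x * (starRingEnd ℂ) (u j x) = if i = j then 1 else 0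

/-- (E, ψ, ψ') is an eigenpair of H_W = -d²/dx² - W in the sense of quadratic forms: ψ in H¹(ℝ) with
derivative ψ' and ∫ ψ' conj φ' - ∫ W ψ conj φ = E ∫ ψ conj φ for all φ in H¹(ℝ) -/
def IsEigen (W : ℝ → ℝ) (E : ℝ) (ψ ψ' : ℝ → ℂ) : Prop :=
  IsH1 ψ ψ' ∧ ∀ φ φ' : ℝ → ℂ, IsH1 φ φ' →
    (∫ x, ψ' x * (starRingEnd ℂ) (φ' x)) - (∫ x, (W x : ℂ) * (ψ x * (starRingEnd ℂ) (φ x))) =
      (E : ℂ) * ∫ x, ψ x * (starRingEnd ℂ) (φ x)

/-! ### the pointwise Young inequality -/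

theorem pot_young {c s t : ℝ} (hc : 0 < c) (hs : 0 ≤ s) (ht : 0 ≤ t) :
    s ^ 2 * t ≤ 1 / (3 * c ^ 2) * t ^ 3 + 2 / 3 * c * s ^ 3 := by
  have h : 0 ≤ (t - c * s) ^ 2 * (t + 2 * (c * s)) := by positivity
  have h2 : 3 * c ^ 2 * (s ^ 2 * t) ≤ 3 * c ^ 2 * (1 / (3 * c ^ 2) * t ^ 3 + 2 / 3 * c * s ^ 3) := by
    have e : 3 * c ^ 2 * (1 / (3 * c ^ 2) * t ^ 3 + 2 / 3 * c * s ^ 3)
        = t ^ 3 + 2 * c ^ 3 * s ^ 3 := by
      field_simp
    rw [e]
    nlinarith [h]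
  exact le_of_mul_le_mul_left h2 (by positivity)

theorem rpow_three_halves {w : ℝ} (hw : 0 ≤ w) : w ^ (3 / 2 : ℝ) = Real.sqrt w ^ 3 := by
  rw [Real.sqrt_eq_rpow, ← Real.rpow_natCast, ← Real.rpow_mul hw]
  norm_num

theorem pot_young' {w t : ℝ} (hw : 0 ≤ w) (ht : 0 ≤ t) :
    w * t ≤ (Real.pi / C0) ^ 2 / 4 * t ^ 3 + 1.178 * Lcl 1 * w ^ (3 / 2 : ℝ) := by
  have hpi := Real.pi_pos
  have h := pot_young (c := 1.178 / Real.pi) (by positivity) (Real.sqrt_nonneg w) ht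
  rw [Real.sq_sqrt hw] at h
  have e1 : (Real.pi / C0) ^ 2 / 4 = 1 / (3 * (1.178 / Real.pi) ^ 2) := by
    unfold C0
    have h3 : Real.sqrt 3 ^ 2 = 3 := Real.sq_sqrt (by norm_num)
    rw [div_pow, div_pow (1.178 * Real.sqrt 3), mul_pow, h3]
    field_simp
    norm_num
  have e2 : 1.178 * Lcl 1 * w ^ (3 / 2 : ℝ) = 2 / 3 * (1.178 / Real.pi) * Real.sqrt w ^ 3 := by
    rw [Lcl_one, rpow_three_halves hw]
    field_simp
  rw [e1, e2]
  exact h

/-! ### integrals -/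

theorem IsH1.integrable_mul {u v u' v' : ℝ → ℂ} (h : IsH1 u v) (h' : IsH1 u' v') :
    Integrable (fun x => u x * (starRingEnd ℂ) (u' x)) := by
  have h2 : MemLp (fun x => (starRingEnd ℂ) (u' x)) 2 volume := by
    have := h'.memLp_u
    exact this.star
  exact h.memLp_u.integrable_mul h2

theorem IsH1.integrable_mul' {u v u' v' : ℝ → ℂ} (h : IsH1 u v) (h' : IsH1 u' v') :
    Integrable (fun x => v x * (starRingEnd ℂ) (v' x)) := by
  have h2 : MemLp (fun x => (starRingEnd ℂ) (v' x)) 2 volume := by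
    have := h'.memLp_v
    exact this.star
  exact h.memLp_v.integrable_mul h2

theorem IsH1.integrable_normSq {u v : ℝ → ℂ} (h : IsH1 u v) :
    Integrable (fun x => ‖u x‖ ^ 2) := by
  have := h.memLp_u.integrable_norm_pow (by norm_num)
  simpa using this

theorem IsH1.integrable_normSq' {u v : ℝ → ℂ} (h : IsH1 u v) :
    Integrable (fun x => ‖v x‖ ^ 2) := by
  have := h.memLp_v.integrable_norm_pow (by norm_num)
  simpa using this

theorem mul_conj_eq (z : ℂ) : z * (starRingEnd ℂ) z = ((‖z‖ ^ 2 : ℝ) : ℂ) := by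
  rw [Complex.mul_conj, Complex.normSq_eq_norm_sq]

theorem IsON.bessel {N : ℕ} {u v : Fin N → ℝ → ℂ} (h : ∀ j, IsH1 (u j) (v j)) (ho : IsON u)
    (c : Fin N → ℂ) : ∫ x, ‖∑ j, c j * u j x‖ ^ 2 = ∑ j, ‖c j‖ ^ 2 := by
  have e : ∀ x, ((‖∑ j, c j * u j x‖ ^ 2 : ℝ) : ℂ) =
      ∑ i, ∑ j, c i * (starRingEnd ℂ) (c j) * (u i x * (starRingEnd ℂ) (u j x)) := by
    intro x
    rw [← mul_conj_eq, map_sum, Finset.sum_mul_sum]
    refine Finset.sum_congr rfl fun i _ => Finset.sum_congr rfl fun j _ => ?_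
    rw [map_mul]
    ring
  have e2 : ((∫ x, ‖∑ j, c j * u j x‖ ^ 2 : ℝ) : ℂ) = ((∑ j, ‖c j‖ ^ 2 : ℝ) : ℂ) := by
    rw [← integral_complex_ofReal]
    simp only [e]
    rw [MeasureTheory.integral_finsetSum]
    · have : ∀ i, ∫ x, ∑ j, c i * (starRingEnd ℂ) (c j) * (u i x * (starRingEnd ℂ) (u j x)) =
          ((‖c i‖ ^ 2 : ℝ) : ℂ) := by
        intro i
        rw [MeasureTheory.integral_finsetSum]
        · have : ∀ j, ∫ x, c i * (starRingEnd ℂ) (c j) * (u i x * (starRingEnd ℂ) (u j x)) =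
              if i = j then c i * (starRingEnd ℂ) (c j) else 0 := by
            intro j
            rw [MeasureTheory.integral_const_mul, ho i j]
            split_ifs <;> simp
          simp only [this]
          rw [Finset.sum_ite_eq Finset.univ i, if_pos (Finset.mem_univ i), mul_conj_eq]
        · intro j _
          exact ((h i).integrable_mul (h j)).const_mul _
      simp only [this]
      push_cast
      rfl
    · intro i _
      refine integrable_finsetSum _ fun j _ => ?_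
      exact ((h i).integrable_mul (h j)).const_mul _
  exact_mod_cast e2

/-- kinetic inequality to potential inequality, γ = 1 -/
theorem pot {N : ℕ} (u v : Fin N → ℝ → ℂ) (h : ∀ j, IsH1 (u j) (v j)) (ho : IsON u)
    (W : ℝ → ℝ) (hWm : Measurable W) (hW0 : ∀ x, 0 ≤ W x)
    (hW : Integrable (fun x => W x ^ (3 / 2 : ℝ))) :
    (∀ j, Integrable (fun x => W x * ‖u j x‖ ^ 2)) ∧
    ∑ j, ((∫ x, W x * ‖u j x‖ ^ 2) - ∫ x, ‖v j x‖ ^ 2) ≤
      1.178 * Lcl 1 * ∫ x, W x ^ (3 / 2 : ℝ) := by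
  obtain ⟨hi, hk⟩ := kinetic u v h (fun c => (ho.bessel h c).le)
  set K : ℝ := (Real.pi / C0) ^ 2 / 4 with hK
  have hint : ∀ j, Integrable (fun x => W x * ‖u j x‖ ^ 2) := by
    intro j
    have hd : Integrable (fun x => K * (∑ j, ‖u j x‖ ^ 2) ^ 3 +
        1.178 * Lcl 1 * W x ^ (3 / 2 : ℝ)) := (hi.const_mul _).add (hW.const_mul _)
    refine hd.mono' ?_ ?_
    · exact hWm.aestronglyMeasurable.mul ((h j).integrable_normSq).aestronglyMeasurable
    · refine Filter.Eventually.of_forall fun x => ?_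
      have h1 : ‖u j x‖ ^ 2 ≤ ∑ j, ‖u j x‖ ^ 2 :=
        Finset.single_le_sum (f := fun j => ‖u j x‖ ^ 2) (fun i _ => by positivity)
          (Finset.mem_univ j)
      have h0 : 0 ≤ W x * ‖u j x‖ ^ 2 := mul_nonneg (hW0 x) (by positivity)
      rw [Real.norm_of_nonneg h0]
      calc W x * ‖u j x‖ ^ 2 ≤ W x * ∑ j, ‖u j x‖ ^ 2 := mul_le_mul_of_nonneg_left h1 (hW0 x)
        _ ≤ _ := pot_young' (hW0 x) (Finset.sum_nonneg fun i _ => by positivity)
  refine ⟨hint, ?_⟩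
  have h2 : ∫ x, W x * ∑ j, ‖u j x‖ ^ 2 ≤
      K * (∫ x, (∑ j, ‖u j x‖ ^ 2) ^ 3) + 1.178 * Lcl 1 * ∫ x, W x ^ (3 / 2 : ℝ) := by
    rw [← MeasureTheory.integral_const_mul, ← MeasureTheory.integral_const_mul, ← MeasureTheory.integral_add (hi.const_mul _) (hW.const_mul _)]
    refine integral_mono ?_ ((hi.const_mul _).add (hW.const_mul _)) ?_
    · have : (fun x => W x * ∑ j, ‖u j x‖ ^ 2) = fun x => ∑ j, W x * ‖u j x‖ ^ 2 := by
        funext x; rw [Finset.mul_sum]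
      rw [this]
      exact integrable_finsetSum _ fun j _ => hint j
    · intro x
      exact pot_young' (hW0 x) (Finset.sum_nonneg fun i _ => by positivity)
  have h3 : ∫ x, W x * ∑ j, ‖u j x‖ ^ 2 = ∑ j, ∫ x, W x * ‖u j x‖ ^ 2 := by
    rw [← MeasureTheory.integral_finsetSum _ fun j _ => hint j]
    refine integral_congr_ae (Filter.Eventually.of_forall fun x => ?_)
    simp only [Finset.mul_sum]
  rw [Finset.sum_sub_distrib]
  rw [h3] at h2
  have h4 : K * (∫ x, (∑ j, ‖u j x‖ ^ 2) ^ 3) ≤ ∑ j, ∫ x, ‖v j x‖ ^ 2 := by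
    rw [hK]
    linarith
  linarith

/-! ### eigenfunctions -/

theorem eig_id {W : ℝ → ℝ} {E : ℝ} (hE : E < 0) {u v : ℝ → ℂ} (h : IsEigen W E u v)
    (h1 : ∫ x, u x * (starRingEnd ℂ) (u x) = 1) :
    (∫ x, ‖u x‖ ^ 2) = 1 ∧ Integrable (fun x => W x * ‖u x‖ ^ 2) ∧
      -E = (∫ x, W x * ‖u x‖ ^ 2) - ∫ x, ‖v x‖ ^ 2 := by
  have hn : (∫ x, ‖u x‖ ^ 2) = 1 := by
    have : ((∫ x, ‖u x‖ ^ 2 : ℝ) : ℂ) = 1 := by
      rw [← integral_complex_ofReal, ← h1]
      refine integral_congr_ae (Filter.Eventually.of_forall fun x => ?_)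
      exact (mul_conj_eq _).symm
    exact_mod_cast this
  have h2 := h.2 u v h.1
  rw [h1, mul_one] at h2
  have h3 : (∫ x, v x * (starRingEnd ℂ) (v x)) = ((∫ x, ‖v x‖ ^ 2 : ℝ) : ℂ) := by
    rw [← integral_complex_ofReal]
    refine integral_congr_ae (Filter.Eventually.of_forall fun x => ?_)
    exact mul_conj_eq _
  have h4 : (∫ x, (W x : ℂ) * (u x * (starRingEnd ℂ) (u x))) =
      ((∫ x, W x * ‖u x‖ ^ 2 : ℝ) : ℂ) := by
    rw [← integral_complex_ofReal]
    refine integral_congr_ae (Filter.Eventually.of_forall fun x => ?_)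
    simp only [mul_conj_eq]
    push_cast
    rfl
  rw [h3, h4] at h2
  have h5 : (∫ x, ‖v x‖ ^ 2) - (∫ x, W x * ‖u x‖ ^ 2) = E := by exact_mod_cast h2
  refine ⟨hn, ?_, by linarith⟩
  by_contra hc
  rw [integral_undef hc] at h5
  have : 0 ≤ ∫ x, ‖v x‖ ^ 2 := integral_nonneg fun x => by positivity
  linarith

theorem eig_shift {W : ℝ → ℝ} {E s : ℝ} (hE : E < 0) {u v : ℝ → ℂ} (h : IsEigen W E u v)
    (h1 : ∫ x, u x * (starRingEnd ℂ) (u x) = 1)
    (hi : Integrable (fun x => max (W x - s) 0 * ‖u x‖ ^ 2)) :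
    -E - s ≤ (∫ x, max (W x - s) 0 * ‖u x‖ ^ 2) - ∫ x, ‖v x‖ ^ 2 := by
  obtain ⟨hn, hI, he⟩ := eig_id hE h h1
  have hs : Integrable (fun x => s * ‖u x‖ ^ 2) := h.1.integrable_normSq.const_mul s
  have h2 : (∫ x, W x * ‖u x‖ ^ 2) - s = ∫ x, (W x * ‖u x‖ ^ 2 - s * ‖u x‖ ^ 2) := by
    rw [MeasureTheory.integral_sub hI hs, MeasureTheory.integral_const_mul, hn, mul_one]
  have h3 : ∫ x, (W x * ‖u x‖ ^ 2 - s * ‖u x‖ ^ 2) ≤ ∫ x, max (W x - s) 0 * ‖u x‖ ^ 2 := by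
    refine integral_mono (hI.sub hs) hi fun x => ?_
    have : W x - s ≤ max (W x - s) 0 := le_max_left _ _
    have h0 : (0:ℝ) ≤ ‖u x‖ ^ 2 := by positivity
    simp only
    nlinarith
  linarith

theorem trunc_integrable {γ s : ℝ} (hγ : 1 ≤ γ) (hs : 0 < s) (W : ℝ → ℝ) (hWm : Measurable W)
    (hW0 : ∀ x, 0 ≤ W x) (hW : Integrable (fun x => W x ^ (γ + 1 / 2))) :
    Integrable (fun x => max (W x - s) 0 ^ (3 / 2 : ℝ)) := by
  refine (hW.const_mul (s ^ (1 - γ))).mono' ?_ ?_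
  · exact (((hWm.sub measurable_const).max measurable_const).pow_const _).aestronglyMeasurable
  · refine Filter.Eventually.of_forall fun x => ?_
    have h0 : 0 ≤ max (W x - s) 0 := le_max_right _ _
    rw [Real.norm_of_nonneg (Real.rpow_nonneg h0 _)]
    rcases le_total (W x) s with h | h
    · rw [max_eq_right (by linarith), Real.zero_rpow (by norm_num)]
      have := Real.rpow_nonneg (hW0 x) (γ + 1 / 2)
      have := Real.rpow_nonneg hs.le (1 - γ)
      positivity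
    · have hWp : 0 < W x := lt_of_lt_of_le hs h
      calc max (W x - s) 0 ^ (3 / 2 : ℝ) ≤ W x ^ (3 / 2 : ℝ) := by
            refine Real.rpow_le_rpow h0 ?_ (by norm_num)
            exact max_le (by linarith) hWp.le
        _ = W x ^ (1 - γ) * W x ^ (γ + 1 / 2) := by
            rw [← Real.rpow_add hWp]; congr 1; ring
        _ ≤ s ^ (1 - γ) * W x ^ (γ + 1 / 2) := by
            refine mul_le_mul_of_nonneg_right ?_ (Real.rpow_nonneg hWp.le _)
            exact Real.rpow_le_rpow_of_nonpos hs h (by linarith)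

theorem eig_trunc {γ s : ℝ} (hγ : 1 ≤ γ) (hs : 0 < s) (W : ℝ → ℝ) (hWm : Measurable W)
    (hW0 : ∀ x, 0 ≤ W x) (hW : Integrable (fun x => W x ^ (γ + 1 / 2))) {N : ℕ} (E : Fin N → ℝ)
    (hE : ∀ j, E j < 0) (u v : Fin N → ℝ → ℂ) (h : ∀ j, IsEigen W (E j) (u j) (v j))
    (ho : IsON u) :
    ∑ j, max (-E j - s) 0 ≤ 1.178 * Lcl 1 * ∫ x, max (W x - s) 0 ^ (3 / 2 : ℝ) := by
  classical
  set J : Finset (Fin N) := Finset.univ.filter fun j => 0 < -E j - s with hJ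
  let e := J.equivFin.symm
  have hinj : ∀ a b : Fin J.card, ((e a : Fin N) = (e b : Fin N)) ↔ a = b := by
    intro a b
    constructor
    · intro hab
      exact e.injective (Subtype.ext hab)
    · rintro rfl; rfl
  have ho' : IsON (fun k : Fin J.card => u (e k)) := by
    intro a b
    rw [ho (e a) (e b)]
    simp only [hinj]
  have hp := pot (fun k : Fin J.card => u (e k)) (fun k => v (e k)) (fun k => (h (e k)).1) ho'
    (fun x => max (W x - s) 0) ((hWm.sub measurable_const).max measurable_const)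
    (fun x => le_max_right _ _) (trunc_integrable hγ hs W hWm hW0 hW)
  refine le_trans ?_ hp.2
  have h1 : ∑ j, max (-E j - s) 0 = ∑ j ∈ J, (-E j - s) := by
    rw [hJ, Finset.sum_filter]
    refine Finset.sum_congr rfl fun j _ => ?_
    split_ifs with hj
    · exact max_eq_left hj.le
    · exact max_eq_right (by linarith)
  have h2 : ∑ j ∈ J, (-E j - s) = ∑ k : Fin J.card, (-E (e k) - s) := by
    rw [← Finset.sum_coe_sort J]
    exact (Equiv.sum_comp e (fun j : J => -E (j : Fin N) - s)).symm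
  rw [h1, h2]
  refine Finset.sum_le_sum fun k _ => ?_
  refine eig_shift (hE (e k)) (h (e k)) ?_ (hp.1 k)
  rw [ho (e k) (e k), if_pos rfl]

theorem eig {γ : ℝ} (hγ : 1 ≤ γ) (W : ℝ → ℝ) (hWm : Measurable W) (hW0 : ∀ x, 0 ≤ W x)
    (hW : Integrable (fun x => W x ^ (γ + 1 / 2))) {N : ℕ} (E : Fin N → ℝ) (hE : ∀ j, E j < 0)
    (u v : Fin N → ℝ → ℂ) (h : ∀ j, IsEigen W (E j) (u j) (v j)) (ho : IsON u) :
    ∑ j, |E j| ^ γ ≤ 1.178 * Lcl γ * ∫ x, W x ^ (γ + 1 / 2) := by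
  have hL1 : 0 < Lcl 1 := Lcl_pos one_pos
  have hLg : 0 < Lcl γ := Lcl_pos (by linarith)
  have habs : ∀ j, |E j| = -E j := fun j => abs_of_neg (hE j)
  rcases eq_or_lt_of_le hγ with h1 | h1
  · subst h1
    have e32 : (1 : ℝ) + 1 / 2 = 3 / 2 := by norm_num
    rw [e32] at hW ⊢
    have hp := pot u v (fun j => (h j).1) ho W hWm hW0 hW
    refine le_trans (le_of_eq ?_) hp.2
    refine Finset.sum_congr rfl fun j _ => ?_
    rw [Real.rpow_one, habs j]
    exact (eig_id (hE j) (h j) (by rw [ho j j, if_pos rfl])).2.2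
  · have hK : (0 : ℝ) ≤ 1.178 * Lcl 1 := by positivity
    have hl := lift h1 (fun j => |E j|) (fun j => abs_pos.mpr (hE j).ne) W hWm hW0
      (1.178 * Lcl 1) hK ?_
    · have eK : 1.178 * Lcl 1 * Lcl γ / Lcl 1 = 1.178 * Lcl γ := by field_simp
      rw [eK, ← ofReal_integral_eq_lintegral_ofReal hW
        (Filter.Eventually.of_forall fun x => Real.rpow_nonneg (hW0 x) _),
        ← ENNReal.ofReal_mul (by positivity)] at hl
      refine (ENNReal.ofReal_le_ofReal_iff ?_).mp hl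
      have : 0 ≤ ∫ x, W x ^ (γ + 1 / 2) := integral_nonneg fun x => Real.rpow_nonneg (hW0 x) _
      positivity
    · intro s hs
      have hi := trunc_integrable hγ hs W hWm hW0 hW
      rw [← ofReal_integral_eq_lintegral_ofReal hi
        (Filter.Eventually.of_forall fun x => Real.rpow_nonneg (le_max_right _ _) _),
        ← ENNReal.ofReal_mul hK]
      refine ENNReal.ofReal_le_ofReal ?_
      simp only [habs]
      exact eig_trunc hγ hs W hWm hW0 hW E hE u v h ho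

end P371
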