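import Mathlib

/-! P371 MODULE SINT: a rational lower bound for the integral of (sin y)^(4/3) over [0, pi]. -/

open MeasureTheory Set intervalIntegral

namespace P371

theorem sint_poly {v : ℝ} (h0 : 0 ≤ v) (h1 : v ≤ 1) :
    ((-332435416850913621112010496) * (v ^ 3) ^ 0 + 24677057692740246486706199088 * (v ^ 3) ^ 1 + 83223430552934374302676335989 * (v ^ 3) ^ 2 + (-106235413781703896690272076000) * (v ^ 3) ^ 3 + 108704601663013055810682000000 * (v ^ 3) ^ 4 + (-64225773916057536412000000000) * (v ^ 3) ^ 5 + 16103932894482541000000000000 * (v ^ 3) ^ 6) / 61915399688557870876680448581 ≤ v ^ 4 := by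
  rw [div_le_iff₀ (by norm_num)]
  have hR : 0 ≤ 2565088092985444607345760000 * v ^ 0 + 24938356459580711460306000000 * v ^ 1 + 139945743665680425811417170000 * v ^ 2 + 404657614721392355747162610000 * v ^ 3 + 757174410936842592071195200000 * v ^ 4 + 1040485733284892452255002000000 * v ^ 5 + 1095014493014007702026620000000 * v ^ 6 + 900544761454512929866300000000 * v ^ 7 + 569753856273931137676000000000 * v ^ 8 + 270223993969417037980000000000 * v ^ 9 + 86961237630205721400000000000 * v ^ 10 + 16103932894482541000000000000 * v ^ 11 := by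
    positivity
  have key : v ^ 4 * 61915399688557870876680448581 - ((-332435416850913621112010496) * (v ^ 3) ^ 0 + 24677057692740246486706199088 * (v ^ 3) ^ 1 + 83223430552934374302676335989 * (v ^ 3) ^ 2 + (-106235413781703896690272076000) * (v ^ 3) ^ 3 + 108704601663013055810682000000 * (v ^ 3) ^ 4 + (-64225773916057536412000000000) * (v ^ 3) ^ 5 + 16103932894482541000000000000 * (v ^ 3) ^ 6) =
      (1 - v) * ((v - 1 / 2) * (v - 4 / 5) * (v - 9 / 10)) ^ 2 * (2565088092985444607345760000 * v ^ 0 + 24938356459580711460306000000 * v ^ 1 + 139945743665680425811417170000 * v ^ 2 + 404657614721392355747162610000 * v ^ 3 + 757174410936842592071195200000 * v ^ 4 + 1040485733284892452255002000000 * v ^ 5 + 1095014493014007702026620000000 * v ^ 6 + 900544761454512929866300000000 * v ^ 7 + 569753856273931137676000000000 * v ^ 8 + 270223993969417037980000000000 * v ^ 9 + 86961237630205721400000000000 * v ^ 10 + 16103932894482541000000000000 * v ^ 11) := by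
    ring
  have h2 : 0 ≤ (1 - v) * ((v - 1 / 2) * (v - 4 / 5) * (v - 9 / 10)) ^ 2 * (2565088092985444607345760000 * v ^ 0 + 24938356459580711460306000000 * v ^ 1 + 139945743665680425811417170000 * v ^ 2 + 404657614721392355747162610000 * v ^ 3 + 757174410936842592071195200000 * v ^ 4 + 1040485733284892452255002000000 * v ^ 5 + 1095014493014007702026620000000 * v ^ 6 + 900544761454512929866300000000 * v ^ 7 + 569753856273931137676000000000 * v ^ 8 + 270223993969417037980000000000 * v ^ 9 + 86961237630205721400000000000 * v ^ 10 + 16103932894482541000000000000 * v ^ 11) :=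
    mul_nonneg (mul_nonneg (by linarith) (sq_nonneg _)) hR
  linarith

theorem sint_pt {y : ℝ} (hy : y ∈ Icc (0 : ℝ) Real.pi) :
    ((-332435416850913621112010496) * (Real.sin y) ^ 0 + 24677057692740246486706199088 * (Real.sin y) ^ 1 + 83223430552934374302676335989 * (Real.sin y) ^ 2 + (-106235413781703896690272076000) * (Real.sin y) ^ 3 + 108704601663013055810682000000 * (Real.sin y) ^ 4 + (-64225773916057536412000000000) * (Real.sin y) ^ 5 + 16103932894482541000000000000 * (Real.sin y) ^ 6) / 61915399688557870876680448581 ≤ (Real.sin y) ^ (4 / 3 : ℝ) := by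
  have hs := Real.sin_nonneg_of_mem_Icc hy
  set v := (Real.sin y) ^ (1 / 3 : ℝ) with hv
  have hv0 : 0 ≤ v := Real.rpow_nonneg hs _
  have hv1 : v ≤ 1 := Real.rpow_le_one hs (Real.sin_le_one y) (by norm_num)
  have hv3 : v ^ 3 = Real.sin y := by
    rw [hv, ← Real.rpow_natCast, ← Real.rpow_mul hs]
    norm_num
  have hv4 : v ^ 4 = (Real.sin y) ^ (4 / 3 : ℝ) := by
    rw [hv, ← Real.rpow_natCast, ← Real.rpow_mul hs]
    norm_num
  have h := sint_poly hv0 hv1
  rw [hv3, hv4] at h
  exact h

theorem sin_int : (1.8209 : ℝ) ≤ ∫ y in (0 : ℝ)..Real.pi, (Real.sin y) ^ (4 / 3 : ℝ) := by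
  have hc : Continuous fun y : ℝ => ((-332435416850913621112010496) * (Real.sin y) ^ 0 + 24677057692740246486706199088 * (Real.sin y) ^ 1 + 83223430552934374302676335989 * (Real.sin y) ^ 2 + (-106235413781703896690272076000) * (Real.sin y) ^ 3 + 108704601663013055810682000000 * (Real.sin y) ^ 4 + (-64225773916057536412000000000) * (Real.sin y) ^ 5 + 16103932894482541000000000000 * (Real.sin y) ^ 6) / 61915399688557870876680448581 := by fun_prop
  have hc2 : Continuous fun y : ℝ => (Real.sin y) ^ (4 / 3 : ℝ) :=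
    Real.continuous_sin.rpow_const (fun x => Or.inr (by norm_num))
  have h1 : ∫ y in (0 : ℝ)..Real.pi, ((-332435416850913621112010496) * (Real.sin y) ^ 0 + 24677057692740246486706199088 * (Real.sin y) ^ 1 + 83223430552934374302676335989 * (Real.sin y) ^ 2 + (-106235413781703896690272076000) * (Real.sin y) ^ 3 + 108704601663013055810682000000 * (Real.sin y) ^ 4 + (-64225773916057536412000000000) * (Real.sin y) ^ 5 + 16103932894482541000000000000 * (Real.sin y) ^ 6) / 61915399688557870876680448581 ≤
      ∫ y in (0 : ℝ)..Real.pi, (Real.sin y) ^ (4 / 3 : ℝ) :=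
    integral_mono_on Real.pi_pos.le (hc.intervalIntegrable _ _) (hc2.intervalIntegrable _ _)
      (fun y hy => sint_pt hy)
  refine le_trans ?_ h1
  have hi : ∀ (c : ℝ) (k : ℕ), IntervalIntegrable (fun y : ℝ => c * (Real.sin y) ^ k) volume 0 Real.pi :=
    fun c k => Continuous.intervalIntegrable (by fun_prop) _ _
  have hk : ∀ (c : ℝ) (k : ℕ), ∫ y in (0 : ℝ)..Real.pi, c * (Real.sin y) ^ k =
      c * ∫ y in (0 : ℝ)..Real.pi, (Real.sin y) ^ k :=
    fun c k => intervalIntegral.integral_const_mul _ _
  have j0 : ∫ y in (0 : ℝ)..Real.pi, (Real.sin y) ^ 0 = Real.pi := by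
    simp
  have j1 : ∫ y in (0 : ℝ)..Real.pi, (Real.sin y) ^ 1 = 2 := by
    have := integral_sin_pow_odd (n := 0)
    simpa using this
  have j2 : ∫ y in (0 : ℝ)..Real.pi, (Real.sin y) ^ 2 = Real.pi / 2 := by
    rw [integral_sin_sq]
    simp
  have j3 : ∫ y in (0 : ℝ)..Real.pi, (Real.sin y) ^ 3 = 4 / 3 := by
    have := integral_sin_pow_odd (n := 1)
    rw [show (2 * 1 + 1 : ℕ) = 3 from rfl] at this
    rw [this]
    norm_num [Finset.prod_range_succ]
  have j4 : ∫ y in (0 : ℝ)..Real.pi, (Real.sin y) ^ 4 = Real.pi * (3 / 8) := by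
    have := integral_sin_pow_even (n := 2)
    rw [show (2 * 2 : ℕ) = 4 from rfl] at this
    rw [this]
    norm_num [Finset.prod_range_succ]
  have j5 : ∫ y in (0 : ℝ)..Real.pi, (Real.sin y) ^ 5 = 16 / 15 := by
    have := integral_sin_pow_odd (n := 2)
    rw [show (2 * 2 + 1 : ℕ) = 5 from rfl] at this
    rw [this]
    norm_num [Finset.prod_range_succ]
  have j6 : ∫ y in (0 : ℝ)..Real.pi, (Real.sin y) ^ 6 = Real.pi * (5 / 16) := by
    have := integral_sin_pow_even (n := 3)
    rw [show (2 * 3 : ℕ) = 6 from rfl] at this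
    rw [this]
    norm_num [Finset.prod_range_succ]
  rw [intervalIntegral.integral_div,
    intervalIntegral.integral_add (((((((hi _ _).add (hi _ _)).add (hi _ _)).add (hi _ _)).add
      (hi _ _)).add (hi _ _))) (hi _ _),
    intervalIntegral.integral_add ((((((hi _ _).add (hi _ _)).add (hi _ _)).add (hi _ _)).add
      (hi _ _))) (hi _ _),
    intervalIntegral.integral_add (((((hi _ _).add (hi _ _)).add (hi _ _)).add (hi _ _))) (hi _ _),
    intervalIntegral.integral_add ((((hi _ _).add (hi _ _)).add (hi _ _))) (hi _ _),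
    intervalIntegral.integral_add (((hi _ _).add (hi _ _))) (hi _ _),
    intervalIntegral.integral_add (hi _ _) (hi _ _),
    hk, hk, hk, hk, hk, hk, hk, j0, j1, j2, j3, j4, j5, j6, le_div_iff₀ (by norm_num)]
  have hp := Real.pi_gt_d6
  linarith

end P371
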