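import Vale.Agent.Lib.P371.Poinc
import Vale.Agent.Lib.P371.Kern

/-! P371 MODULE WINDOW (the window inequality).
For φ real let ind φ x = 1 if φ < α x < φ + π else 0, h φ x = ind * g x * sin (α x - φ),
hd φ x = ind * (g' x * sin (α x - φ) + g x * α' x * cos (α x - φ)), T φ = ∫ in a..b, ind φ x * σ x.
(A) for each φ and z > 0, from poinc on the window and
    3 z^2 s^4 - 2 z^3 s^3 T ≤ s^6 / T^2 with s = sin^(1/3):
    π^2 * 3 z^2 ∫ ind g^2 σ sin^(4/3) ≤ ∫ hd^2/σ + π^2 * 2 z^3 T φ ∫ ind g^2 σ sin.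
(B) integrate over φ ∈ [α a - π, α b], Fubini; inner integrals ∫_0^π (A sin + B cos)^2 = π/2 (A^2+B^2).
(C) ∫ dφ T φ ∫ ind g^2 σ sin = ∫∫ g(x)^2 σ(x) σ(z) 2 kk(α z - α x) ≤ 2 M ∫ g^2 σ; z = I0 / (2M). -/

open MeasureTheory Set intervalIntegral

namespace P371

theorem ite_integral {p q c d : ℝ} (hpc : p ≤ c) (hcd : c ≤ d) (hdq : d ≤ q) (P : ℝ → Prop)
    [DecidablePred P] (hP : ∀ x ∈ Ioo p q, P x ↔ (c < x ∧ x < d)) (F : ℝ → ℝ) :
    ∫ x in p..q, (if P x then 1 else 0) * F x = ∫ x in c..d, F x := by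
  rw [integral_of_le (hpc.trans (hcd.trans hdq)), integral_of_le hcd,
    integral_Ioc_eq_integral_Ioo, integral_Ioc_eq_integral_Ioo]
  have h1 : ∫ x in Ioo p q, (if P x then (1:ℝ) else 0) * F x = ∫ x in Ioo p q, (Ioo c d).indicator F x := by
    apply setIntegral_congr_fun measurableSet_Ioo
    intro x hx
    by_cases h : P x
    · have h2 : x ∈ Ioo c d := (hP x hx).1 h
      simp [h, indicator_of_mem h2]
    · have h2 : x ∉ Ioo c d := fun h3 => h ((hP x hx).2 h3)
      simp [h, indicator_of_notMem h2]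
  rw [h1, setIntegral_indicator measurableSet_Ioo]
  congr 2
  exact inter_eq_right.2 (Ioo_subset_Ioo hpc hdq)

theorem swap {p q a b : ℝ} (hpq : p ≤ q) (hab : a ≤ b) (D : ℝ × ℝ → ℝ) (hD : Continuous D)
    (w : ℝ × ℝ → ℝ) (hw : Measurable w) (B : ℝ) (hB : ∀ z, |w z| ≤ B) :
    ∫ y in p..q, ∫ x in a..b, w (y, x) * D (y, x) = ∫ x in a..b, ∫ y in p..q, w (y, x) * D (y, x) := by
  apply intervalIntegral_intervalIntegral_swap (F := fun y x => w (y, x) * D (y, x))
  have h1 : IntegrableOn D (Icc p q ×ˢ Icc a b) volume :=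
    hD.continuousOn.integrableOn_compact (isCompact_Icc.prod isCompact_Icc)
  have h2 : IntegrableOn D (uIoc p q ×ˢ uIoc a b) volume := by
    apply h1.mono_set
    rw [uIoc_of_le hpq, uIoc_of_le hab]
    exact prod_mono Ioc_subset_Icc_self Ioc_subset_Icc_self
  exact Integrable.bdd_mul (c := B) h2 hw.aestronglyMeasurable (Filter.Eventually.of_forall fun z => by
    rw [Real.norm_eq_abs]; exact hB z)

theorem swap_int {p q a b : ℝ} (hpq : p ≤ q) (hab : a ≤ b) (D : ℝ × ℝ → ℝ) (hD : Continuous D)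
    (w : ℝ × ℝ → ℝ) (hw : Measurable w) (B : ℝ) (hB : ∀ z, |w z| ≤ B) :
    IntervalIntegrable (fun y => ∫ x in a..b, w (y, x) * D (y, x)) volume p q := by
  have h1 : IntegrableOn D (Icc p q ×ˢ Icc a b) (volume.prod volume) :=
    hD.continuousOn.integrableOn_compact (isCompact_Icc.prod isCompact_Icc)
  have h2 : IntegrableOn D (Ioc p q ×ˢ Ioc a b) (volume.prod volume) := by
    apply h1.mono_set
    exact prod_mono Ioc_subset_Icc_self Ioc_subset_Icc_self
  have h3 := Integrable.bdd_mul (c := B) h2 hw.aestronglyMeasurable (Filter.Eventually.of_forall fun z => by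
    rw [Real.norm_eq_abs]; exact hB z)
  rw [← Measure.prod_restrict] at h3
  have h4 := h3.integral_prod_left
  rw [intervalIntegrable_iff_integrableOn_Ioc_of_le hpq]
  simp only [integral_of_le hab]
  exact h4

theorem win_interval {a b : ℝ} (hab : a < b) (α : ℝ → ℝ) (hm : Monotone α) (hc : Continuous α) (φ : ℝ) :
    ∃ c d : ℝ, a ≤ c ∧ c ≤ d ∧ d ≤ b ∧
      (∀ x ∈ Ioo a b, (φ < α x ∧ α x < φ + Real.pi) ↔ (c < x ∧ x < d)) ∧
      (c < d → (c = a ∨ α c = φ) ∧ (d = b ∨ α d = φ + Real.pi)) := by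
  set A : Set ℝ := ({x | α x ≤ φ} ∩ Icc a b) ∪ {a} with hA
  set B : Set ℝ := ({x | φ + Real.pi ≤ α x} ∩ Icc a b) ∪ {b} with hB
  have hAc : IsCompact A := by
    apply IsCompact.union _ isCompact_singleton
    exact (isCompact_Icc.inter_left (isClosed_le hc continuous_const))
  have hBc : IsCompact B := by
    apply IsCompact.union _ isCompact_singleton
    exact (isCompact_Icc.inter_left (isClosed_le continuous_const hc))
  have hAn : A.Nonempty := ⟨a, by simp [hA]⟩
  have hBn : B.Nonempty := ⟨b, by simp [hB]⟩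
  have hcA := hAc.sSup_mem hAn
  have hdB := hBc.sInf_mem hBn
  set c := sSup A with hcdef
  set d := sInf B with hddef
  have hAle : ∀ x ∈ A, x ≤ c := fun x hx => le_csSup hAc.bddAbove hx
  have hBge : ∀ x ∈ B, d ≤ x := fun x hx => csInf_le hBc.bddBelow hx
  have hac : a ≤ c := hAle a (by simp [hA])
  have hdb : d ≤ b := hBge b (by simp [hB])
  have hcb : c ≤ b := by
    rcases hcA with h | h
    · exact h.2.2
    · rw [mem_singleton_iff] at h; rw [h]; exact hab.le
  have had : a ≤ d := by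
    rcases hdB with h | h
    · exact h.2.1
    · rw [mem_singleton_iff] at h; rw [h]; exact hab.le
  have k1 : ∀ x ∈ Ioo a b, φ < α x ↔ c < x := by
    intro x hx
    constructor
    · intro h
      rcases hcA with h2 | h2
      · by_contra h3
        push Not at h3
        have := hm h3
        have h4 : α c ≤ φ := h2.1
        linarith
      · rw [mem_singleton_iff] at h2; rw [h2]; exact hx.1
    · intro h
      by_contra h3
      push Not at h3
      have : x ∈ A := Or.inl ⟨h3, Ioo_subset_Icc_self hx⟩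
      exact absurd (hAle x this) (not_le.2 h)
  have k2 : ∀ x ∈ Ioo a b, α x < φ + Real.pi ↔ x < d := by
    intro x hx
    constructor
    · intro h
      rcases hdB with h2 | h2
      · by_contra h3
        push Not at h3
        have := hm h3
        have h4 : φ + Real.pi ≤ α d := h2.1
        linarith
      · rw [mem_singleton_iff] at h2; rw [h2]; exact hx.2
    · intro h
      by_contra h3
      push Not at h3
      have : x ∈ B := Or.inl ⟨h3, Ioo_subset_Icc_self hx⟩
      exact absurd (hBge x this) (not_le.2 h)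
  by_cases hcd : c < d
  · refine ⟨c, d, hac, hcd.le, hdb, fun x hx => and_congr (k1 x hx) (k2 x hx), fun _ => ⟨?_, ?_⟩⟩
    · rcases hcA with h2 | h2
      · right
        apply le_antisymm h2.1
        have h5 : Filter.Tendsto α (nhdsWithin c (Ioi c)) (nhds (α c)) := hc.continuousAt.continuousWithinAt
        apply ge_of_tendsto h5
        have h6 : Ioo c d ∈ nhdsWithin c (Ioi c) := Ioo_mem_nhdsGT hcd
        filter_upwards [h6] with x hx
        exact ((k1 x ⟨lt_of_le_of_lt hac hx.1, lt_of_lt_of_le hx.2 hdb⟩).2 hx.1).le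
      · left; exact h2
    · rcases hdB with h2 | h2
      · right
        apply le_antisymm _ h2.1
        have h5 : Filter.Tendsto α (nhdsWithin d (Iio d)) (nhds (α d)) := hc.continuousAt.continuousWithinAt
        apply le_of_tendsto h5
        have h6 : Ioo c d ∈ nhdsWithin d (Iio d) := Ioo_mem_nhdsLT hcd
        filter_upwards [h6] with x hx
        exact ((k2 x ⟨lt_of_le_of_lt hac hx.1, lt_of_lt_of_le hx.2 hdb⟩).2 hx.2).le
      · left; exact h2
  · push Not at hcd
    refine ⟨a, a, le_rfl, le_rfl, hab.le, fun x hx => ?_, fun h => absurd h (lt_irrefl _)⟩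
    constructor
    · rintro ⟨h1, h2⟩
      have := (k1 x hx).1 h1
      have := (k2 x hx).1 h2
      exfalso; linarith
    · rintro ⟨h1, h2⟩
      exfalso; linarith

open Classical in
/-- window indicator -/
noncomputable def ind (α : ℝ → ℝ) (φ x : ℝ) : ℝ := if φ < α x ∧ α x < φ + Real.pi then 1 else 0

theorem ind_nonneg (α : ℝ → ℝ) (φ x : ℝ) : 0 ≤ ind α φ x := by
  unfold ind; split_ifs <;> norm_num

theorem ind_le_one (α : ℝ → ℝ) (φ x : ℝ) : ind α φ x ≤ 1 := by
  unfold ind; split_ifs <;> norm_num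

theorem ind_meas (α : ℝ → ℝ) (hα : Continuous α) : Measurable fun z : ℝ × ℝ => ind α z.1 z.2 := by
  classical
  unfold ind
  apply Measurable.ite _ measurable_const measurable_const
  have h1 : IsOpen {z : ℝ × ℝ | z.1 < α z.2} := isOpen_lt continuous_fst (hα.comp continuous_snd)
  have h2 : IsOpen {z : ℝ × ℝ | α z.2 < z.1 + Real.pi} :=
    isOpen_lt (hα.comp continuous_snd) (continuous_fst.add continuous_const)
  exact (h1.inter h2).measurableSet

theorem E1 {a b : ℝ} (α : ℝ → ℝ) (hm : Monotone α) {x : ℝ} (hx : x ∈ Icc a b) (f : ℝ → ℝ) :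
    ∫ φ in (α a - Real.pi)..(α b), ind α φ x * f (α x - φ) = ∫ y in (0:ℝ)..Real.pi, f y := by
  classical
  have h := ite_integral (p := α a - Real.pi) (q := α b) (c := α x - Real.pi) (d := α x)
    (by linarith [hm hx.1]) (by linarith [Real.pi_pos]) (hm hx.2) (fun φ => φ < α x ∧ α x < φ + Real.pi)
    (fun φ _ => by constructor <;> rintro ⟨h1, h2⟩ <;> constructor <;> linarith) (fun φ => f (α x - φ))
  unfold ind
  rw [h, integral_comp_sub_left]
  congr 1 <;> ring

theorem kk_nonneg (d : ℝ) : 0 ≤ kk d := by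
  unfold kk; split_ifs <;> positivity

theorem kk_le_one (d : ℝ) : kk d ≤ 1 := by
  unfold kk; split_ifs
  · exact Real.cos_sq_le_one _
  · norm_num

theorem kk_meas : Measurable kk := by
  unfold kk
  apply Measurable.ite _ (by fun_prop) measurable_const
  exact measurableSet_lt (by fun_prop) measurable_const

theorem C0_pos : 0 < C0 := by unfold C0; positivity

theorem E2 {a b : ℝ} (α : ℝ → ℝ) (hm : Monotone α) {x z : ℝ} (hx : x ∈ Icc a b) (hz : z ∈ Icc a b) :
    ∫ φ in (α a - Real.pi)..(α b), (ind α φ x * ind α φ z) * Real.sin (α x - φ) =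
      2 * kk (α z - α x) := by
  classical
  have hpi := Real.pi_pos
  by_cases hd : |α z - α x| < Real.pi
  · have hkk : 2 * kk (α z - α x) = 1 + Real.cos (α z - α x) := by
      unfold kk
      rw [if_pos hd, Real.cos_sq]
      ring_nf
    rw [hkk]
    have hprod : ∀ φ, ind α φ x * ind α φ z =
        if (φ < α x ∧ α x < φ + Real.pi) ∧ (φ < α z ∧ α z < φ + Real.pi) then 1 else 0 := by
      intro φ
      unfold ind
      by_cases h1 : (φ < α x ∧ α x < φ + Real.pi) <;> by_cases h2 : (φ < α z ∧ α z < φ + Real.pi) <;>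
        simp [h1, h2]
    simp only [hprod]
    rcases le_or_gt 0 (α z - α x) with h0 | h0
    · rw [abs_of_nonneg h0] at hd
      have h := ite_integral (p := α a - Real.pi) (q := α b) (c := α z - Real.pi) (d := α x)
        (by linarith [hm hz.1]) (by linarith) (hm hx.2)
        (fun φ => (φ < α x ∧ α x < φ + Real.pi) ∧ (φ < α z ∧ α z < φ + Real.pi))
        (fun φ _ => by
          constructor
          · rintro ⟨⟨h1, h2⟩, ⟨h3, h4⟩⟩; constructor <;> linarith
          · rintro ⟨h1, h2⟩; refine ⟨⟨?_, ?_⟩, ?_, ?_⟩ <;> linarith) (fun φ => Real.sin (α x - φ))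
      rw [h, integral_comp_sub_left (fun y => Real.sin y), integral_sin]
      rw [show α x - (α z - Real.pi) = Real.pi - (α z - α x) by ring, Real.cos_pi_sub, sub_self,
        Real.cos_zero]
      ring
    · rw [abs_of_neg h0] at hd
      have h := ite_integral (p := α a - Real.pi) (q := α b) (c := α x - Real.pi) (d := α z)
        (by linarith [hm hx.1]) (by linarith) (hm hz.2)
        (fun φ => (φ < α x ∧ α x < φ + Real.pi) ∧ (φ < α z ∧ α z < φ + Real.pi))
        (fun φ _ => by
          constructor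
          · rintro ⟨⟨h1, h2⟩, ⟨h3, h4⟩⟩; constructor <;> linarith
          · rintro ⟨h1, h2⟩; refine ⟨⟨?_, ?_⟩, ?_, ?_⟩ <;> linarith) (fun φ => Real.sin (α x - φ))
      rw [h, integral_comp_sub_left (fun y => Real.sin y), integral_sin]
      rw [show α x - (α x - Real.pi) = Real.pi by ring, Real.cos_pi,
        show α x - α z = -(α z - α x) by ring, Real.cos_neg]
      ring
  · have hz : ∀ φ, ind α φ x * ind α φ z = 0 := by
      intro φ
      unfold ind
      by_cases h1 : (φ < α x ∧ α x < φ + Real.pi)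
      · by_cases h2 : (φ < α z ∧ α z < φ + Real.pi)
        · exfalso; apply hd; rw [abs_lt]; constructor <;> linarith [h1.1, h1.2, h2.1, h2.2]
        · simp [h2]
      · simp [h1]
    simp only [hz, zero_mul, intervalIntegral.integral_zero]
    unfold kk
    rw [if_neg hd, mul_zero]

/-- the tangent line inequality behind Hölder's inequality -/
theorem tangent {s T z : ℝ} (hs : 0 ≤ s) (hT : 0 < T) (hz : 0 < z) :
    3 * z ^ 2 * s ^ (4 / 3 : ℝ) ≤ s ^ 2 / T ^ 2 + 2 * z ^ 3 * T * s := by
  set v := s ^ (1 / 3 : ℝ) with hv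
  have hv0 : 0 ≤ v := Real.rpow_nonneg hs _
  have hv3 : v ^ 3 = s := by
    rw [hv, ← Real.rpow_natCast, ← Real.rpow_mul hs]
    norm_num
  have hv4 : v ^ 4 = s ^ (4 / 3 : ℝ) := by
    rw [hv, ← Real.rpow_natCast, ← Real.rpow_mul hs]
    norm_num
  rw [← hv4, ← hv3]
  have h : (v ^ 3) ^ 2 / T ^ 2 + 2 * z ^ 3 * T * v ^ 3 - 3 * z ^ 2 * v ^ 4 =
      v ^ 3 * ((v - z * T) ^ 2 * (v + 2 * z * T)) / T ^ 2 := by
    field_simp
    ring
  have h2 : 0 ≤ v ^ 3 * ((v - z * T) ^ 2 * (v + 2 * z * T)) / T ^ 2 := by positivity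
  linarith

theorem win_poinc {a b : ℝ} (hab : a < b) (σ g g' α α' : ℝ → ℝ) (hσ : Continuous σ)
    (hpos : ∀ x, 0 < σ x) (hg : ∀ x, HasDerivAt g (g' x) x) (hg' : Continuous g')
    (hα : ∀ x, HasDerivAt α (α' x) x) (hα' : Continuous α') (hα0 : ∀ x, 0 ≤ α' x)
    (ha : g a = 0) (hb : g b = 0) (ζ : ℝ) (hζ : 0 < ζ) (φ : ℝ) :
    Real.pi ^ 2 * (3 * ζ ^ 2 * ∫ x in a..b, ind α φ x * (g x ^ 2 * σ x * Real.sin (α x - φ) ^ (4 / 3 : ℝ))) ≤
      (∫ x in a..b, ind α φ x * ((g' x * Real.sin (α x - φ) + g x * (Real.cos (α x - φ) * α' x)) ^ 2 / σ x)) +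
      Real.pi ^ 2 * (2 * ζ ^ 3 * ((∫ x in a..b, ind α φ x * σ x) *
        ∫ x in a..b, ind α φ x * (g x ^ 2 * σ x * Real.sin (α x - φ)))) := by
  classical
  have hpi := Real.pi_pos
  have hαc : Continuous α := continuous_iff_continuousAt.2 fun x => (hα x).continuousAt
  have hgc : Continuous g := continuous_iff_continuousAt.2 fun x => (hg x).continuousAt
  have hm : Monotone α := monotone_of_deriv_nonneg (fun x => (hα x).differentiableAt)
    (fun x => by rw [(hα x).deriv]; exact hα0 x)
  obtain ⟨c, d, hac, hcd, hdb, hP, hE⟩ := win_interval hab α hm hαc φ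
  have key : ∀ F : ℝ → ℝ, ∫ x in a..b, ind α φ x * F x = ∫ x in c..d, F x := fun F => by
    unfold ind
    exact ite_integral hac hcd hdb _ hP F
  have key1 : ∫ x in a..b, ind α φ x * σ x = ∫ x in c..d, σ x := key _
  rw [key, key, key, key]
  rcases hcd.lt_or_eq with h | h
  · obtain ⟨h1, h2⟩ := hE h
    have hH : ∀ x, HasDerivAt (fun x => g x * Real.sin (α x - φ))
        (g' x * Real.sin (α x - φ) + g x * (Real.cos (α x - φ) * α' x)) x := by
      intro x
      have := (hg x).mul (((hα x).sub_const φ).sin)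
      exact this
    have hH' : Continuous fun x => g' x * Real.sin (α x - φ) + g x * (Real.cos (α x - φ) * α' x) := by
      fun_prop
    have hHc : g c * Real.sin (α c - φ) = 0 := by
      rcases h1 with h1 | h1
      · rw [h1, ha, zero_mul]
      · rw [h1]; simp
    have hHd : g d * Real.sin (α d - φ) = 0 := by
      rcases h2 with h2 | h2
      · rw [h2, hb, zero_mul]
      · rw [h2]; simp
    have hp := poinc h σ _ _ hσ hpos hH hH' hHc hHd
    set T := ∫ x in c..d, σ x with hT
    have hTpos : 0 < T := intervalIntegral_pos_of_pos (hσ.intervalIntegrable _ _) hpos h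
    have hs43 : Continuous fun x => Real.sin (α x - φ) ^ (4 / 3 : ℝ) :=
      (Real.continuous_sin.comp (hαc.sub continuous_const)).rpow_const (fun x => Or.inr (by norm_num))
    have i1 : IntervalIntegrable (fun x => g x ^ 2 * σ x * Real.sin (α x - φ) ^ (4 / 3 : ℝ)) volume c d :=
      (((hgc.pow 2).mul hσ).mul hs43).intervalIntegrable _ _
    have i2 : IntervalIntegrable (fun x => (g x * Real.sin (α x - φ)) ^ 2 * σ x) volume c d :=
      Continuous.intervalIntegrable (by fun_prop) _ _
    have i3 : IntervalIntegrable (fun x => g x ^ 2 * σ x * Real.sin (α x - φ)) volume c d :=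
      Continuous.intervalIntegrable (by fun_prop) _ _
    have hmono : ∫ x in c..d, 3 * ζ ^ 2 * (g x ^ 2 * σ x * Real.sin (α x - φ) ^ (4 / 3 : ℝ)) ≤
        ∫ x in c..d, (1 / T ^ 2 * ((g x * Real.sin (α x - φ)) ^ 2 * σ x) +
          2 * ζ ^ 3 * T * (g x ^ 2 * σ x * Real.sin (α x - φ))) := by
      rw [integral_of_le hcd, integral_of_le hcd, integral_Ioc_eq_integral_Ioo,
        integral_Ioc_eq_integral_Ioo]
      apply setIntegral_mono_on
      · exact ((intervalIntegrable_iff_integrableOn_Ioo_of_le hcd).1 (i1.const_mul _))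
      · exact ((intervalIntegrable_iff_integrableOn_Ioo_of_le hcd).1
          ((i2.const_mul _).add (i3.const_mul _)))
      · exact measurableSet_Ioo
      · intro x hx
        have hxab : x ∈ Ioo a b := ⟨lt_of_le_of_lt hac hx.1, lt_of_lt_of_le hx.2 hdb⟩
        have hxw := (hP x hxab).2 ⟨hx.1, hx.2⟩
        have hsin : 0 ≤ Real.sin (α x - φ) :=
          Real.sin_nonneg_of_nonneg_of_le_pi (by linarith [hxw.1]) (by linarith [hxw.2])
        have ht := tangent hsin hTpos hζ
        have hg0 : 0 ≤ g x ^ 2 * σ x := mul_nonneg (sq_nonneg _) (hpos x).le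
        have := mul_le_mul_of_nonneg_left ht hg0
        calc 3 * ζ ^ 2 * (g x ^ 2 * σ x * Real.sin (α x - φ) ^ (4 / 3 : ℝ)) =
            g x ^ 2 * σ x * (3 * ζ ^ 2 * Real.sin (α x - φ) ^ (4 / 3 : ℝ)) := by ring
          _ ≤ _ := this
          _ = _ := by ring
    rw [intervalIntegral.integral_const_mul, intervalIntegral.integral_add (i2.const_mul _)
      (i3.const_mul _), intervalIntegral.integral_const_mul, intervalIntegral.integral_const_mul] at hmono
    set X := ∫ x in c..d, (g x * Real.sin (α x - φ)) ^ 2 * σ x with hX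
    set Y := ∫ x in c..d, g x ^ 2 * σ x * Real.sin (α x - φ) with hY
    have h5 := mul_le_mul_of_nonneg_left hmono (sq_nonneg Real.pi)
    have h6 : Real.pi ^ 2 * (1 / T ^ 2 * X + 2 * ζ ^ 3 * T * Y) =
        (Real.pi / T) ^ 2 * X + Real.pi ^ 2 * (2 * ζ ^ 3 * (T * Y)) := by
      rw [div_pow]
      ring
    rw [h6] at h5
    linarith
  · subst h
    simp

theorem trig_int (A B : ℝ) :
    ∫ y in (0:ℝ)..Real.pi, (A * Real.sin y + B * Real.cos y) ^ 2 = Real.pi / 2 * (A ^ 2 + B ^ 2) := by
  have h : ∀ y, (A * Real.sin y + B * Real.cos y) ^ 2 =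
      A ^ 2 * Real.sin y ^ 2 + (2 * A * B) * (Real.sin y * Real.cos y) + B ^ 2 * Real.cos y ^ 2 := by
    intro y; ring
  simp only [h]
  rw [intervalIntegral.integral_add, intervalIntegral.integral_add, intervalIntegral.integral_const_mul, intervalIntegral.integral_const_mul,
    intervalIntegral.integral_const_mul, integral_sin_sq, integral_cos_sq, integral_sin_mul_cos₁]
  · simp
    ring
  all_goals exact Continuous.intervalIntegrable (by fun_prop) _ _

theorem window {a b : ℝ} (hab : a < b) (σ g g' α α' : ℝ → ℝ) (hσ : Continuous σ)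
    (hpos : ∀ x, 0 < σ x) (hg : ∀ x, HasDerivAt g (g' x) x) (hg' : Continuous g')
    (hα : ∀ x, HasDerivAt α (α' x) x) (hα' : Continuous α') (hα0 : ∀ x, 0 ≤ α' x)
    (ha : g a = 0) (hb : g b = 0) (M : ℝ) (hM0 : 0 < M)
    (hM : ∀ x ∈ Icc a b, ∫ y in a..b, kk (α y - α x) * σ y ≤ M) :
    (Real.pi / (C0 * M)) ^ 2 * ∫ x in a..b, g x ^ 2 * σ x ≤
      ∫ x in a..b, (g' x ^ 2 + g x ^ 2 * α' x ^ 2) / σ x := by
  have hpi := Real.pi_pos
  have hC0 := C0_pos
  have hI0 : 0 < I0 := by unfold I0; norm_num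
  have hαc : Continuous α := continuous_iff_continuousAt.2 fun x => (hα x).continuousAt
  have hgc : Continuous g := continuous_iff_continuousAt.2 fun x => (hg x).continuousAt
  have hm : Monotone α := monotone_of_deriv_nonneg (fun x => (hα x).differentiableAt)
    (fun x => by rw [(hα x).deriv]; exact hα0 x)
  set ζ := I0 / (2 * M) with hζdef
  have hζ : 0 < ζ := by positivity
  set p := α a - Real.pi with hp
  set q := α b with hq
  have hpq : p ≤ q := by have := hm hab.le; linarith
  -- the three functions of φ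
  set D1 : ℝ × ℝ → ℝ := fun z => (g' z.2 * Real.sin (α z.2 - z.1) + g z.2 * (Real.cos (α z.2 - z.1) * α' z.2)) ^ 2 / σ z.2
    with hD1
  set D2 : ℝ × ℝ → ℝ := fun z => g z.2 ^ 2 * σ z.2 * Real.sin (α z.2 - z.1) ^ (4 / 3 : ℝ) with hD2
  set D3 : ℝ × ℝ → ℝ := fun z => g z.2 ^ 2 * σ z.2 * Real.sin (α z.2 - z.1) with hD3
  have hD1c : Continuous D1 := by
    apply Continuous.div (by fun_prop) (by fun_prop) (fun z => (hpos _).ne')
  have hD2c : Continuous D2 := by
    have hs43 : Continuous fun z : ℝ × ℝ => Real.sin (α z.2 - z.1) ^ (4 / 3 : ℝ) :=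
      Continuous.rpow_const (by fun_prop) (fun x => Or.inr (by norm_num))
    exact Continuous.mul (by fun_prop) hs43
  have hD3c : Continuous D3 := by fun_prop
  set w : ℝ × ℝ → ℝ := fun z => ind α z.1 z.2 with hw
  have hwm : Measurable w := ind_meas α hαc
  have hwb : ∀ z, |w z| ≤ 1 := fun z => by
    rw [abs_of_nonneg (ind_nonneg _ _ _)]; exact ind_le_one _ _ _
  set T : ℝ → ℝ := fun φ => ∫ x in a..b, ind α φ x * σ x with hT
  have hTm : Measurable T := by
    have h1 : StronglyMeasurable (Function.uncurry fun φ x : ℝ => ind α φ x * σ x) := by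
      apply Measurable.stronglyMeasurable
      exact hwm.mul (hσ.measurable.comp measurable_snd)
    have h2 := h1.integral_prod_right (ν := volume.restrict (Ioc a b))
    simp only [hT, integral_of_le hab.le]
    exact h2.measurable
  have hσi : IntervalIntegrable σ volume a b := hσ.intervalIntegrable _ _
  have hT0 : ∀ φ, 0 ≤ T φ := fun φ => integral_nonneg hab.le fun x _ => mul_nonneg (ind_nonneg _ _ _) (hpos x).le
  have hTb : ∀ φ, T φ ≤ ∫ x in a..b, σ x := by
    intro φ
    have h1 : ‖∫ x in a..b, ind α φ x * σ x‖ ≤ ∫ x in a..b, σ x := by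
      apply norm_integral_le_of_norm_le hab.le _ hσi
      refine Filter.Eventually.of_forall fun x _ => ?_
      rw [Real.norm_eq_abs, abs_of_nonneg (mul_nonneg (ind_nonneg _ _ _) (hpos x).le)]
      have := ind_le_one α φ x
      nlinarith [hpos x]
    exact (le_abs_self _).trans h1
  set w2 : ℝ × ℝ → ℝ := fun z => ind α z.1 z.2 * T z.1 with hw2
  have hw2m : Measurable w2 := hwm.mul (hTm.comp measurable_fst)
  have hw2b : ∀ z, |w2 z| ≤ ∫ x in a..b, σ x := fun z => by
    rw [abs_of_nonneg (mul_nonneg (ind_nonneg _ _ _) (hT0 _))]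
    have h1 := ind_le_one α z.1 z.2
    have h2 := ind_nonneg α z.1 z.2
    calc ind α z.1 z.2 * T z.1 ≤ 1 * T z.1 := mul_le_mul_of_nonneg_right h1 (hT0 _)
      _ ≤ _ := by rw [one_mul]; exact hTb _
  -- pointwise inequality in φ
  have hA : ∀ φ, Real.pi ^ 2 * (3 * ζ ^ 2 * ∫ x in a..b, w (φ, x) * D2 (φ, x)) ≤
      (∫ x in a..b, w (φ, x) * D1 (φ, x)) +
      Real.pi ^ 2 * (2 * ζ ^ 3 * ∫ x in a..b, w2 (φ, x) * D3 (φ, x)) := by
    intro φ
    have h1 := win_poinc hab σ g g' α α' hσ hpos hg hg' hα hα' hα0 ha hb ζ hζ φ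
    have h2 : ∫ x in a..b, w2 (φ, x) * D3 (φ, x) = T φ * ∫ x in a..b, w (φ, x) * D3 (φ, x) := by
      rw [← intervalIntegral.integral_const_mul]
      apply intervalIntegral.integral_congr
      intro x _
      simp only [hw2, hw]
      ring
    rw [h2]
    exact h1
  have i1 := swap_int hpq hab.le D1 hD1c w hwm 1 hwb
  have i2 := swap_int hpq hab.le D2 hD2c w hwm 1 hwb
  have i3 := swap_int hpq hab.le D3 hD3c w2 hw2m _ hw2b
  have hint : Real.pi ^ 2 * (3 * ζ ^ 2 * ∫ φ in p..q, ∫ x in a..b, w (φ, x) * D2 (φ, x)) ≤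
      (∫ φ in p..q, ∫ x in a..b, w (φ, x) * D1 (φ, x)) +
      Real.pi ^ 2 * (2 * ζ ^ 3 * ∫ φ in p..q, ∫ x in a..b, w2 (φ, x) * D3 (φ, x)) := by
    rw [← intervalIntegral.integral_const_mul, ← intervalIntegral.integral_const_mul,
      ← intervalIntegral.integral_const_mul, ← intervalIntegral.integral_const_mul,
      ← intervalIntegral.integral_add i1 ((i3.const_mul _).const_mul _)]
    exact intervalIntegral.integral_mono_on hpq ((i2.const_mul _).const_mul _)
      (i1.add ((i3.const_mul _).const_mul _)) fun φ _ => hA φ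
  rw [swap hpq hab.le D1 hD1c w hwm 1 hwb, swap hpq hab.le D2 hD2c w hwm 1 hwb,
    swap hpq hab.le D3 hD3c w2 hw2m _ hw2b] at hint
  set S := ∫ x in a..b, g x ^ 2 * σ x with hS
  set R := ∫ x in a..b, (g' x ^ 2 + g x ^ 2 * α' x ^ 2) / σ x with hR
  set II := ∫ y in (0 : ℝ)..Real.pi, (Real.sin y) ^ (4 / 3 : ℝ) with hII
  have hS0 : 0 ≤ S := integral_nonneg hab.le fun x _ => mul_nonneg (sq_nonneg _) (hpos x).le
  have e2 : ∫ x in a..b, ∫ φ in p..q, w (φ, x) * D2 (φ, x) = II * S := by
    rw [hS, ← intervalIntegral.integral_const_mul]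
    apply intervalIntegral.integral_congr
    intro x hx
    rw [uIcc_of_le hab.le] at hx
    have h1 := E1 α hm hx (fun y => g x ^ 2 * σ x * Real.sin y ^ (4 / 3 : ℝ))
    rw [intervalIntegral.integral_const_mul] at h1
    simp only [hw, hD2]
    rw [h1]; ring
  have e1 : ∫ x in a..b, ∫ φ in p..q, w (φ, x) * D1 (φ, x) = Real.pi / 2 * R := by
    rw [hR, ← intervalIntegral.integral_const_mul]
    apply intervalIntegral.integral_congr
    intro x hx
    rw [uIcc_of_le hab.le] at hx
    have h1 := E1 α hm hx (fun y => (g' x * Real.sin y + g x * α' x * Real.cos y) ^ 2 / σ x)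
    have h2 := trig_int (g' x) (g x * α' x)
    rw [intervalIntegral.integral_div, h2] at h1
    simp only [hw, hD1]
    have h3 : ∀ φ, (g' x * Real.sin (α x - φ) + g x * (Real.cos (α x - φ) * α' x)) =
      (g' x * Real.sin (α x - φ) + g x * α' x * Real.cos (α x - φ)) := fun φ => by ring
    simp only [h3]
    rw [h1]; ring
  have e3 : ∫ x in a..b, ∫ φ in p..q, w2 (φ, x) * D3 (φ, x) ≤ 2 * M * S := by
    rw [hS, ← intervalIntegral.integral_const_mul]
    have hpt : ∀ x ∈ Icc a b, (∫ φ in p..q, w2 (φ, x) * D3 (φ, x)) =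
        (g x ^ 2 * σ x) * (2 * ∫ z in a..b, kk (α z - α x) * σ z) := by
      intro x hx
      have h1 : ∀ φ, w2 (φ, x) * D3 (φ, x) = (g x ^ 2 * σ x) *
          ∫ z in a..b, (ind α φ x * ind α φ z) * (Real.sin (α x - φ) * σ z) := by
        intro φ
        have : ∀ z, (ind α φ x * ind α φ z) * (Real.sin (α x - φ) * σ z) =
          (ind α φ x * Real.sin (α x - φ)) * (ind α φ z * σ z) := fun z => by ring
        simp only [this]
        rw [intervalIntegral.integral_const_mul]
        simp only [hw2, hD3, hT]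
        ring
      simp only [h1]
      rw [intervalIntegral.integral_const_mul]
      have h2 : ∫ φ in p..q, ∫ z in a..b, (ind α φ x * ind α φ z) * (Real.sin (α x - φ) * σ z) =
          ∫ z in a..b, ∫ φ in p..q, (ind α φ x * ind α φ z) * (Real.sin (α x - φ) * σ z) := by
        apply swap hpq hab.le (fun y => Real.sin (α x - y.1) * σ y.2) (by fun_prop)
          (fun y => ind α y.1 x * ind α y.1 y.2) _ 1
        · intro y
          rw [abs_of_nonneg (mul_nonneg (ind_nonneg _ _ _) (ind_nonneg _ _ _))]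
          have := ind_le_one α y.1 x
          have := ind_le_one α y.1 y.2
          have := ind_nonneg α y.1 x
          have := ind_nonneg α y.1 y.2
          nlinarith
        · apply Measurable.mul _ hwm
          have : (fun y : ℝ × ℝ => ind α y.1 x) = (fun z : ℝ × ℝ => ind α z.1 z.2) ∘ (fun y : ℝ × ℝ => (y.1, x)) := rfl
          rw [this]
          exact hwm.comp (by fun_prop)
      rw [h2]
      congr 1
      rw [← intervalIntegral.integral_const_mul]
      apply intervalIntegral.integral_congr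
      intro z hz
      rw [uIcc_of_le hab.le] at hz
      have h6 := E2 α hm hx hz
      have h3 : ∫ φ in p..q, (ind α φ x * ind α φ z) * (Real.sin (α x - φ) * σ z) =
          σ z * ∫ φ in p..q, (ind α φ x * ind α φ z) * Real.sin (α x - φ) := by
        rw [← intervalIntegral.integral_const_mul]
        apply intervalIntegral.integral_congr
        intro φ _
        ring
      simp only []
      rw [h3, h6]
      ring
    have hle : ∀ x ∈ Icc a b, (∫ φ in p..q, w2 (φ, x) * D3 (φ, x)) ≤ 2 * M * (g x ^ 2 * σ x) := by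
      intro x hx
      rw [hpt x hx]
      have h8 := hM x hx
      have h9 : 0 ≤ g x ^ 2 * σ x := mul_nonneg (sq_nonneg _) (hpos x).le
      have := mul_le_mul_of_nonneg_left h8 h9
      linarith
    rw [integral_of_le hab.le, integral_of_le hab.le]
    apply MeasureTheory.integral_mono_of_nonneg
    · filter_upwards [ae_restrict_mem measurableSet_Ioc] with x hx
      rw [hpt x (Ioc_subset_Icc_self hx)]
      have h9 : 0 ≤ g x ^ 2 * σ x := mul_nonneg (sq_nonneg _) (hpos x).le
      have h10 : 0 ≤ ∫ z in a..b, kk (α z - α x) * σ z :=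
        integral_nonneg hab.le fun z _ => mul_nonneg (kk_nonneg _) (hpos z).le
      simp only [Pi.zero_apply]
      positivity
    · apply Integrable.const_mul
      exact (intervalIntegrable_iff_integrableOn_Ioc_of_le hab.le).1
        (Continuous.intervalIntegrable (by fun_prop) _ _)
    · filter_upwards [ae_restrict_mem measurableSet_Ioc] with x hx
      exact hle x (Ioc_subset_Icc_self hx)
  rw [e1, e2] at hint
  have h1 : Real.pi ^ 2 * (2 * ζ ^ 3 * ∫ x in a..b, ∫ φ in p..q, w2 (φ, x) * D3 (φ, x)) ≤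
      Real.pi ^ 2 * (2 * ζ ^ 3 * (2 * M * S)) := by
    apply mul_le_mul_of_nonneg_left _ (by positivity)
    exact mul_le_mul_of_nonneg_left e3 (by positivity)
  have h2 : Real.pi ^ 2 * (3 * ζ ^ 2 * (I0 * S)) ≤ Real.pi ^ 2 * (3 * ζ ^ 2 * (II * S)) := by
    apply mul_le_mul_of_nonneg_left _ (by positivity)
    apply mul_le_mul_of_nonneg_left _ (by positivity)
    exact mul_le_mul_of_nonneg_right I0_le hS0
  have h3 : Real.pi ^ 2 * (3 * ζ ^ 2 * (I0 * S)) - Real.pi ^ 2 * (2 * ζ ^ 3 * (2 * M * S)) ≤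
      Real.pi / 2 * R := by linarith
  have h4 : Real.pi ^ 2 * (3 * ζ ^ 2 * (I0 * S)) - Real.pi ^ 2 * (2 * ζ ^ 3 * (2 * M * S)) =
      Real.pi ^ 2 * I0 ^ 3 / (4 * M ^ 2) * S := by
    rw [hζdef]
    field_simp
    ring
  rw [h4] at h3
  have h5 : Real.pi / 2 * ((Real.pi / (C0 * M)) ^ 2 * S) ≤ Real.pi ^ 2 * I0 ^ 3 / (4 * M ^ 2) * S := by
    rw [← mul_assoc]
    apply mul_le_mul_of_nonneg_right _ hS0
    rw [div_pow, mul_pow, ← mul_div_assoc, div_le_div_iff₀ (by positivity) (by positivity)]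
    have h6 := C0_num
    have h7 : 0 ≤ 2 * M ^ 2 * Real.pi ^ 2 := by positivity
    nlinarith [mul_le_mul_of_nonneg_left h6 (by positivity : 0 ≤ Real.pi ^ 2 * M ^ 2)]
  exact le_of_mul_le_mul_left (h5.trans h3) (by positivity)

end P371
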